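import Vale.Agent.P069.Reflexive

/-!
# The asymptotic midpoint uniform convexity of the `ℓ₂`-sum
-/

open scoped BigOperators ENNReal

namespace Vale.Agent.P069

variable {n : ℕ}

lemma pair_add_left (f g : TNode n →₀ ℝ) (x : TNode n → ℝ) :
    pair (f + g) x = pair f x + pair g x := by
  classical
  have h1 : (f + g).support ⊆ f.support ∪ g.support := Finsupp.support_add
  rw [pair_eq_sum _ _ h1, pair_eq_sum f x Finset.subset_union_left,
    pair_eq_sum g x Finset.subset_union_right, ← Finset.sum_add_distrib]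
  refine Finset.sum_congr rfl fun v _ => ?_
  simp only [Finsupp.add_apply]
  ring

lemma InBall.smul_finsupp {c : ℝ} {f : TNode n →₀ ℝ} (h : InBall c f) (a : ℝ) :
    InBall (a ^ 2 * c) (a • f : TNode n →₀ ℝ) := by
  have h1 := h.smul a
  have h3 : ((fun v => a * (f : TNode n → ℝ) v)) = (a • f : TNode n →₀ ℝ) := by
    funext v
    simp
  rwa [h3] at h1

/-- Near norming functionals, on one tree. -/
lemma exists_pair_ge (u : H n) {ρ : ℝ} (hρ : 0 < ρ) :
    ∃ g ∈ Ball n, (1 - ρ) * pn u ≤ pair g u := by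
  rcases (pn_nonneg u).eq_or_lt with h0 | hpos
  · refine ⟨0, zero_mem_ball, ?_⟩
    have : pair (0 : TNode n →₀ ℝ) u = 0 := by simp [pair]
    rw [this, ← h0]
    simp
  · have hlt : (1 - ρ) * pn u < sSup ((fun f => |pair f u|) '' Ball n) := by
      have : (1 - ρ) * pn u < 1 * pn u := mul_lt_mul_of_pos_right (by linarith) hpos
      rw [one_mul] at this
      exact this
    obtain ⟨_, ⟨f, hf, rfl⟩, hf2⟩ := exists_lt_of_lt_csSup (Set.Nonempty.image _ ⟨0, zero_mem_ball⟩) hlt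
    simp only at hf2
    rcases le_total 0 (pair f u) with hs | hs
    · rw [abs_of_nonneg hs] at hf2
      exact ⟨f, hf, hf2.le⟩
    · rw [abs_of_nonpos hs] at hf2
      refine ⟨(-1 : ℝ) • f, ?_, ?_⟩
      · have := InBall.smul_finsupp hf (-1)
        norm_num at this
        have h2 : InBall 1 ((-1 : ℝ) • f : TNode n →₀ ℝ) := by
          have h3 := InBall.smul_finsupp hf (-1)
          have h4 : ((-1 : ℝ) ^ 2 * 1 : ℝ) = 1 := by norm_num
          rwa [h4] at h3
        exact h2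
      · rw [pair_smul_left]
        linarith

/-- The outer Cauchy-Schwarz estimate. -/
lemma outer_le (z : Y) (J : Finset ℕ) (F : ∀ n, TNode n →₀ ℝ) (c : ℕ → ℝ)
    (hF : ∀ n, InBall (c n) (F n)) (hc : ∑ n ∈ J, c n ≤ 1) :
    ∑ n ∈ J, pair (F n) (toH (z n)) ≤ ‖z‖ := by
  have h1 : ∀ n, pair (F n) (toH (z n)) ≤ Real.sqrt (c n) * ‖z n‖ := fun n =>
    (le_abs_self _).trans (pair_le_of_inBall (hF n) _)
  have hc0 : ∀ n, 0 ≤ c n := fun n => (hF n).nonneg
  have h2 : ∑ n ∈ J, (Real.sqrt (c n)) ^ 2 = ∑ n ∈ J, c n :=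
    Finset.sum_congr rfl fun n _ => Real.sq_sqrt (hc0 n)
  have h3 : Real.sqrt (∑ n ∈ J, ‖z n‖ ^ 2) ≤ ‖z‖ := by
    rw [show ‖z‖ = Real.sqrt (‖z‖ ^ 2) from (Real.sqrt_sq (norm_nonneg _)).symm]
    exact Real.sqrt_le_sqrt (sum_norm_sq_le z J)
  have h4 : Real.sqrt (∑ n ∈ J, c n) ≤ 1 := by
    rw [show (1 : ℝ) = Real.sqrt 1 by simp]
    exact Real.sqrt_le_sqrt hc
  calc ∑ n ∈ J, pair (F n) (toH (z n))
      ≤ ∑ n ∈ J, Real.sqrt (c n) * ‖z n‖ := Finset.sum_le_sum fun n _ => h1 n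
    _ ≤ Real.sqrt (∑ n ∈ J, (Real.sqrt (c n)) ^ 2) * Real.sqrt (∑ n ∈ J, ‖z n‖ ^ 2) :=
        Real.sum_mul_le_sqrt_mul_sqrt _ _ _
    _ ≤ 1 * ‖z‖ := by
        rw [h2]
        exact mul_le_mul h4 h3 (Real.sqrt_nonneg _) zero_le_one
    _ = ‖z‖ := one_mul _

/-- Near norming functionals on the sum. -/
lemma exists_norming (z : Y) {ρ : ℝ} (hρ : 0 < ρ) (hρ1 : ρ < 1) :
    ∃ (J : Finset ℕ) (h : ∀ n, TNode n →₀ ℝ) (c : ℕ → ℝ),
      (∀ n, InBall (c n) (h n)) ∧ ∑ n ∈ J, c n ≤ 1 ∧ (∀ n, n ∉ J → h n = 0 ∧ c n = 0) ∧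
      (1 - ρ) * ‖z‖ ≤ ∑ n ∈ J, pair (h n) (toH (z n)) := by
  classical
  rcases (norm_nonneg z).eq_or_lt with h0 | hpos
  · refine ⟨∅, fun _ => 0, fun _ => 0, fun n => ?_, by simp, fun n _ => ⟨rfl, rfl⟩, ?_⟩
    · exact zero_inBall le_rfl
    · rw [← h0]
      simp
  set r := ‖z‖ with hr
  have hsum : HasSum (fun n => ‖z n‖ ^ 2) (r ^ 2) := by
    have := lp.hasSum_norm (p := 2) (by simp) z
    simpa only [lp_two_toReal, Real.rpow_two] using this
  set τ := (1 - ρ / 2) ^ 2 * r ^ 2 with hτ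
  have hτ0 : 0 < τ := by
    have : 0 < 1 - ρ / 2 := by linarith
    positivity
  have hτlt : τ < r ^ 2 := by
    have h1 : 0 < 1 - ρ / 2 := by linarith
    have h2 : (1 - ρ / 2) ^ 2 < 1 := by nlinarith
    have h3 : 0 < r ^ 2 := by positivity
    nlinarith
  have hev := (hsum.eventually_const_lt hτlt)
  obtain ⟨J, hJ⟩ := hev.exists
  set s := ∑ n ∈ J, ‖z n‖ ^ 2 with hs
  have hs0 : 0 < s := lt_trans hτ0 hJ
  set σ := Real.sqrt s with hσ
  have hσ0 : 0 < σ := Real.sqrt_pos.mpr hs0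
  have hσσ : σ ^ 2 = s := Real.sq_sqrt hs0.le
  have hσge : (1 - ρ / 2) * r ≤ σ := by
    apply Real.le_sqrt_of_sq_le
    rw [mul_pow]
    exact hJ.le
  choose g hg1 hg2 using fun n => exists_pair_ge (toH (z n)) (half_pos hρ)
  have hg3 : ∀ n, (1 - ρ / 2) * ‖z n‖ ≤ pair (g n) (toH (z n)) := hg2
  refine ⟨J, fun n => if n ∈ J then (‖z n‖ / σ) • g n else 0,
    fun n => if n ∈ J then ‖z n‖ ^ 2 / s else 0, fun n => ?_, ?_, fun n hn => ?_, ?_⟩
  · by_cases hn : n ∈ J
    · simp only [if_pos hn]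
      have h1 := InBall.smul_finsupp (hg1 n) (‖z n‖ / σ)
      have h2 : (‖z n‖ / σ) ^ 2 * 1 = ‖z n‖ ^ 2 / s := by
        rw [div_pow, hσσ, mul_one]
      rwa [h2] at h1
    · simp only [if_neg hn]
      exact zero_inBall le_rfl
  · have h1 : ∑ n ∈ J, (if n ∈ J then ‖z n‖ ^ 2 / s else 0) = ∑ n ∈ J, ‖z n‖ ^ 2 / s :=
      Finset.sum_congr rfl fun n hn => if_pos hn
    rw [h1, ← Finset.sum_div, ← hs, div_self hs0.ne']
  · simp [if_neg hn]
  · have h1 : ∀ n ∈ J, (1 - ρ / 2) * (‖z n‖ ^ 2 / σ) ≤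
        pair (if n ∈ J then (‖z n‖ / σ) • g n else 0) (toH (z n)) := by
      intro n hn
      rw [if_pos hn, pair_smul_left]
      have h2 := hg3 n
      have h3 : 0 ≤ ‖z n‖ / σ := by positivity
      calc (1 - ρ / 2) * (‖z n‖ ^ 2 / σ) = ‖z n‖ / σ * ((1 - ρ / 2) * ‖z n‖) := by
            field_simp
        _ ≤ _ := mul_le_mul_of_nonneg_left h2 h3
    refine le_trans ?_ (Finset.sum_le_sum h1)
    rw [← Finset.mul_sum, ← Finset.sum_div, ← hs, ← hσσ]
    have h4 : σ ^ 2 / σ = σ := by field_simp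
    rw [h4]
    have h5 : 0 < 1 - ρ / 2 := by linarith
    have h6 : (1 - ρ / 2) * ((1 - ρ / 2) * r) ≤ (1 - ρ / 2) * σ :=
      mul_le_mul_of_nonneg_left hσge h5.le
    nlinarith [sq_nonneg (ρ / 2), sq_nonneg r]

/-- The step on one tree. -/
lemma tree_step {G : Finset (TNode n)} (hG : IsDown G) {f g : TNode n →₀ ℝ} {cf cg : ℝ}
    (hf : InBall cf f) (hg : InBall cg g) (hfG : ∀ v, v ∉ G → f v = 0) (a b : H n)
    (ha : ∀ v, v ∉ G → a v = 0) (hb : ∀ v ∈ G, b v = 0) {α κ : ℝ} (t : ℝ) (hα : 0 ≤ α)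
    (hκ : 0 ≤ κ) :
    ∃ Fp Fm : TNode n →₀ ℝ, InBall (α ^ 2 * cf + 4 / 3 * κ ^ 2 * cg) Fp ∧
      InBall (α ^ 2 * cf + 4 / 3 * κ ^ 2 * cg) Fm ∧
      pair Fp (a + t • b : H n) + pair Fm (a - t • b : H n) =
        2 * α * pair f a + κ * t * pair g b := by
  classical
  obtain ⟨gp, gm, h0, h1, h2, h3⟩ := split (f := f) (g := g) hG hf hg hfG
  obtain ⟨h3p, h3m⟩ := h3 α κ hα hκ
  let gp' : TNode n →₀ ℝ := Finsupp.onFinset g.support gp (fun v hv => by
    by_contra hcon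
    exact hv (h0 v (by simpa using hcon)).1)
  let gm' : TNode n →₀ ℝ := Finsupp.onFinset g.support gm (fun v hv => by
    by_contra hcon
    exact hv (h0 v (by simpa using hcon)).2)
  have hgp : ∀ v, gp' v = gp v := fun v => rfl
  have hgm : ∀ v, gm' v = gm v := fun v => rfl
  let Fp : TNode n →₀ ℝ := Finsupp.onFinset (f.support ∪ g.support)
    (fun v => α * f v + κ * gp v) (fun v hv => by
      by_contra hcon
      have h4 : f v = 0 := by
        by_contra h5
        exact hcon (Finset.mem_union_left _ (by simpa using h5))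
      have h6 : g v = 0 := by
        by_contra h5
        exact hcon (Finset.mem_union_right _ (by simpa using h5))
      apply hv
      rw [h4, (h0 v h6).1]
      ring)
  let Fm : TNode n →₀ ℝ := Finsupp.onFinset (f.support ∪ g.support)
    (fun v => α * f v - κ * gm v) (fun v hv => by
      by_contra hcon
      have h4 : f v = 0 := by
        by_contra h5
        exact hcon (Finset.mem_union_left _ (by simpa using h5))
      have h6 : g v = 0 := by
        by_contra h5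
        exact hcon (Finset.mem_union_right _ (by simpa using h5))
      apply hv
      rw [h4, (h0 v h6).2]
      ring)
  have hFp : ∀ v, Fp v = α * f v + κ * gp v := fun v => rfl
  have hFm : ∀ v, Fm v = α * f v - κ * gm v := fun v => rfl
  refine ⟨Fp, Fm, h3p, h3m, ?_⟩
  set S := f.support ∪ g.support with hS
  have hFpS : Fp.support ⊆ S := Finsupp.support_onFinset_subset
  have hFmS : Fm.support ⊆ S := Finsupp.support_onFinset_subset
  rw [pair_eq_sum Fp _ hFpS, pair_eq_sum Fm _ hFmS,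
    pair_eq_sum f a (Finset.subset_union_left), pair_eq_sum g b (Finset.subset_union_right),
    Finset.mul_sum, Finset.mul_sum, ← Finset.sum_add_distrib, ← Finset.sum_add_distrib]
  refine Finset.sum_congr rfl fun v _ => ?_
  rw [hFp, hFm]
  have hab1 : (a + t • b : H n) v = a v + t * b v := rfl
  have hab2 : (a - t • b : H n) v = a v - t * b v := rfl
  rw [hab1, hab2]
  by_cases hv : v ∈ G
  · rw [(h1 v hv).1, (h1 v hv).2, hb v hv]
    ring
  · have h5 := h2 v
    have h6 : offG G g v = g v := if_neg hv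
    rw [h6] at h5
    rw [ha v hv, ← h5]
    rw [hfG v hv]
    ring

/-- The step on the sum. -/
lemma outer_step (x y : Y) (L : Finset ℕ) (G : ∀ n, Finset (TNode n)) (f g : ∀ n, TNode n →₀ ℝ)
    (cf cg : ℕ → ℝ) (hG : ∀ n, IsDown (G n)) (hf : ∀ n, InBall (cf n) (f n))
    (hg : ∀ n, InBall (cg n) (g n)) (hfG : ∀ n v, v ∉ G n → f n v = 0)
    (hx : ∀ n v, v ∉ G n → toH (x n) v = 0) (hy : ∀ n, ∀ v ∈ G n, toH (y n) v = 0)
    {α κ : ℝ} (t : ℝ) (hα : 0 ≤ α) (hκ : 0 ≤ κ)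
    (hsum : α ^ 2 * ∑ n ∈ L, cf n + 4 / 3 * κ ^ 2 * ∑ n ∈ L, cg n ≤ 1) :
    2 * α * ∑ n ∈ L, pair (f n) (toH (x n)) + κ * t * ∑ n ∈ L, pair (g n) (toH (y n)) ≤
      ‖x + t • y‖ + ‖x - t • y‖ := by
  choose Fp Fm hFp hFm hval using fun n =>
    tree_step (hG n) (hf n) (hg n) (hfG n) (toH (x n)) (toH (y n)) (hx n) (hy n) t hα hκ
  have hc : ∑ n ∈ L, (α ^ 2 * cf n + 4 / 3 * κ ^ 2 * cg n) ≤ 1 := by
    rw [Finset.sum_add_distrib, ← Finset.mul_sum, ← Finset.mul_sum]
    exact hsum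
  have h1 := outer_le (x + t • y) L Fp _ hFp hc
  have h2 := outer_le (x - t • y) L Fm _ hFm hc
  have h3 : ∑ n ∈ L, pair (Fp n) (toH ((x + t • y) n)) +
      ∑ n ∈ L, pair (Fm n) (toH ((x - t • y) n)) =
      2 * α * ∑ n ∈ L, pair (f n) (toH (x n)) + κ * t * ∑ n ∈ L, pair (g n) (toH (y n)) := by
    rw [← Finset.sum_add_distrib, Finset.mul_sum, Finset.mul_sum, ← Finset.sum_add_distrib]
    refine Finset.sum_congr rfl fun n _ => ?_
    exact hval n
  linarith

/-! ### Coordinates and closed subspaces of finite codimension -/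

/-- The sigma type of all nodes of all the trees. -/
abbrev Sig := Σ m, TNode m

/-- A coordinate on the sum. -/
noncomputable def coord (p : Sig) : Y →L[ℝ] ℝ :=
  (lp.evalCLM ℝ (fun _ : TNode p.1 => ℝ) 2 p.2).comp
    (((eX p.1 : X p.1 ≃L[ℝ] H p.1) : X p.1 →L[ℝ] H p.1).comp (proj (fun n => X n) p.1))

lemma coord_apply (p : Sig) (z : Y) : coord p z = toH (z p.1) p.2 := rfl

/-- The common kernel of finitely many coordinates. -/
noncomputable def coordMap (T : Finset Sig) : Y →L[ℝ] (T → ℝ) :=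
  ContinuousLinearMap.pi fun p => coord p.1

/-- The common kernel of finitely many coordinates. -/
noncomputable def coordKer (T : Finset Sig) : Submodule ℝ Y := (coordMap T : Y →ₗ[ℝ] (T → ℝ)).ker

lemma mem_coordKer {T : Finset Sig} {y : Y} (h : y ∈ coordKer T) {p : Sig} (hp : p ∈ T) :
    toH (y p.1) p.2 = 0 := by
  have h1 : coordMap T y = 0 := h
  have h2 := congrFun h1 ⟨p, hp⟩
  exact h2

lemma isClosed_coordKer (T : Finset Sig) : IsClosed (coordKer T : Set Y) :=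
  (coordMap T).isClosed_ker

lemma finiteDimensional_quot_coordKer (T : Finset Sig) :
    FiniteDimensional ℝ (Y ⧸ coordKer T) := by
  have e := (coordMap T : Y →ₗ[ℝ] (T → ℝ)).quotKerEquivRange
  exact LinearEquiv.finiteDimensional e.symm

/-! ### Finitely supported vectors -/

/-- Finitely supported vectors of the sum. -/
noncomputable def FS : Submodule ℝ Y where
  carrier := {x | ∃ T : Finset Sig, ∀ m v, (⟨m, v⟩ : Sig) ∉ T → toH (x m) v = 0}
  zero_mem' := ⟨∅, fun m v _ => rfl⟩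
  add_mem' := by
    classical
    rintro x y ⟨T, hT⟩ ⟨T', hT'⟩
    refine ⟨T ∪ T', fun m v hv => ?_⟩
    have h1 : (⟨m, v⟩ : Sig) ∉ T := fun h => hv (Finset.mem_union_left _ h)
    have h2 : (⟨m, v⟩ : Sig) ∉ T' := fun h => hv (Finset.mem_union_right _ h)
    have h3 : toH ((x + y) m) v = toH (x m) v + toH (y m) v := rfl
    rw [h3, hT m v h1, hT' m v h2, add_zero]
  smul_mem' := by
    rintro c x ⟨T, hT⟩
    refine ⟨T, fun m v hv => ?_⟩
    have h3 : toH ((c • x) m) v = c * toH (x m) v := rfl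
    rw [h3, hT m v hv, mul_zero]

/-- The vector of the sum that lives on one node. -/
lemma single_mem_FS (n : ℕ) (v : TNode n) (c : ℝ) [DecidableEq (TNode n)] :
    iota (fun n => X n) n (toH.symm (lp.single 2 v c)) ∈ FS := by
  classical
  refine ⟨{⟨n, v⟩}, fun m u hu => ?_⟩
  have h1 : (iota (fun n => X n) n (toH.symm (lp.single 2 v c)) : Y) m =
      Pi.single (M := fun n => X n) n (toH.symm (lp.single 2 v c)) m := lp.single_apply _ _ _ _
  rw [h1]
  by_cases hm : m = n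
  · subst hm
    rw [Pi.single_eq_same, LinearEquiv.apply_symm_apply]
    have h2 : (lp.single 2 v c : H m) u = Pi.single (M := fun _ => ℝ) v c u :=
      lp.single_apply _ _ _ _
    rw [h2]
    apply Pi.single_eq_of_ne
    intro h
    apply hu
    rw [h]
    exact Finset.mem_singleton_self _
  · rw [Pi.single_eq_of_ne hm]
    exact congrFun (congrArg Subtype.val (toH (n := m)).map_zero) u

/-- Finitely supported vectors are dense. -/
lemma dense_FS (x : Y) {δ : ℝ} (hδ : 0 < δ) : ∃ x' ∈ FS, ‖x - x'‖ < δ := by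
  classical
  have key : ∀ n (u : H n), iota (fun n => X n) n (toH.symm u) ∈ FS.topologicalClosure := by
    intro n u
    have h1 := lp.hasSum_single (p := 2) (by simp) u
    let A : H n →L[ℝ] Y := (iota (fun n => X n) n).comp
      (((eX n).symm : H n ≃L[ℝ] X n) : H n →L[ℝ] X n)
    have hA : ∀ w, A w = iota (fun n => X n) n (toH.symm w) := fun w => rfl
    have h2 := h1.mapL A
    rw [hA] at h2
    refine FS.isClosed_topologicalClosure.mem_of_tendsto h2 (Filter.Eventually.of_forall ?_)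
    intro J
    refine Submodule.sum_mem _ fun v _ => ?_
    rw [hA]
    exact FS.le_topologicalClosure (single_mem_FS n v _)
  have hmem : x ∈ FS.topologicalClosure := by
    have h1 := lp.hasSum_single (p := 2) (by simp) x
    refine FS.isClosed_topologicalClosure.mem_of_tendsto h1 (Filter.Eventually.of_forall ?_)
    intro J
    refine Submodule.sum_mem _ fun n _ => ?_
    have := key n (toH (x n))
    rwa [LinearEquiv.symm_apply_apply] at this
  have h2 : x ∈ closure (FS : Set Y) := hmem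
  obtain ⟨x', hx', hd⟩ := Metric.mem_closure_iff.mp h2 δ hδ
  exact ⟨x', hx', by rwa [dist_eq_norm] at hd⟩

/-! ### Downward closure -/

/-- Downward closure in the sigma type. -/
noncomputable def sigDown (T : Finset Sig) : Finset Sig := by
  classical
  exact T.biUnion fun p => (Finset.range (depth p.2 + 1)).image fun i => ⟨p.1, anc p.2 i⟩

lemma mem_sigDown {T : Finset Sig} {q : Sig} :
    q ∈ sigDown T ↔ ∃ p ∈ T, ∃ i, i ≤ depth p.2 ∧ (⟨p.1, anc p.2 i⟩ : Sig) = q := by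
  classical
  unfold sigDown
  simp only [Finset.mem_biUnion, Finset.mem_image, Finset.mem_range, Nat.lt_succ_iff]

lemma subset_sigDown {T : Finset Sig} {p : Sig} (h : p ∈ T) : p ∈ sigDown T :=
  mem_sigDown.mpr ⟨p, h, depth p.2, le_rfl, by rw [anc_depth]⟩

/-- The fibre of a sigma finset over a tree. -/
noncomputable def fib (T : Finset Sig) (m : ℕ) : Finset (TNode m) :=
  T.preimage (Sigma.mk m) sigma_mk_injective.injOn

lemma mem_fib {T : Finset Sig} {m : ℕ} {v : TNode m} : v ∈ fib T m ↔ (⟨m, v⟩ : Sig) ∈ T := by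
  unfold fib
  rw [Finset.mem_preimage]

lemma isDown_fib (T : Finset Sig) (m : ℕ) : IsDown (fib (sigDown T) m) := by
  intro v hv i
  rw [mem_fib, mem_sigDown] at hv ⊢
  obtain ⟨⟨k, u⟩, hp, j, hj, heq⟩ := hv
  simp only at hj heq
  obtain ⟨rfl, h2⟩ := Sigma.mk.inj_iff.mp heq
  have h3 : anc u j = v := eq_of_heq h2
  refine ⟨⟨k, u⟩, hp, min i j, le_trans (min_le_right _ _) hj, ?_⟩
  simp only
  rw [← h3, anc_anc]

/-! ### The modulus -/

lemma arith_final {α κ e δ : ℝ} (hα0 : 0 ≤ α) (hκe : 4 * κ ^ 2 ≤ e) (hδ0 : 0 ≤ δ)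
    (hδe : δ * (6 + e) = e / 4) (hα : α = 1 - κ ^ 2) :
    2 + e / 4 ≤ 2 * α * ((1 - δ) * (1 - δ)) + e * (1 - δ) - 2 * δ := by
  have h5 : 0 ≤ κ ^ 2 * δ := by positivity
  have h6 : 0 ≤ δ ^ 2 := sq_nonneg δ
  have h7 : α * (1 - 2 * δ) ≤ α * ((1 - δ) * (1 - δ)) :=
    mul_le_mul_of_nonneg_left (by nlinarith) hα0
  have h8 : α * (1 - 2 * δ) = 1 - κ ^ 2 - 2 * δ + 2 * (κ ^ 2 * δ) := by
    rw [hα]
    ring
  have h9 : 2 * α * ((1 - δ) * (1 - δ)) = 2 * (α * ((1 - δ) * (1 - δ))) := by ring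
  have h10 : e * (1 - δ) = e - δ * e := by ring
  have h11 : δ * (6 + e) = 6 * δ + δ * e := by ring
  rw [h9, h10]
  linarith

/-- The asymptotic midpoint uniform convexity of the sum, on finitely supported vectors. -/
theorem amuc_Y {t : ℝ} (ht : 0 < t) : ∃ c : ℝ, 0 < c ∧ ∀ x : Y, ‖x‖ = 1 →
    ∃ F : Submodule ℝ Y, IsClosed (F : Set Y) ∧ FiniteDimensional ℝ (Y ⧸ F) ∧
      ∀ y ∈ F, ‖y‖ = 1 → c ≤ max ‖x + t • y‖ ‖x - t • y‖ - 1 := by
  classical
  set κ := min (t / 4) (1 / 2) with hκ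
  have hκ0 : 0 < κ := lt_min (by positivity) (by norm_num)
  have hκ1 : κ ≤ t / 4 := min_le_left _ _
  have hκ2 : κ ≤ 1 / 2 := min_le_right _ _
  set α := 1 - κ ^ 2 with hα
  have hα0 : 0 ≤ α := by
    rw [hα]
    nlinarith
  set e := κ * t with he
  have he0 : 0 < e := mul_pos hκ0 ht
  have hκe : 4 * κ ^ 2 ≤ e := by
    rw [he]
    nlinarith
  set δ := e / (4 * (6 + e)) with hδ
  have hδ0 : 0 < δ := by positivity
  have hδ1 : δ < 1 := by
    rw [hδ, div_lt_one (by positivity)]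
    nlinarith
  have hδe : δ * (6 + e) = e / 4 := by
    rw [hδ]
    field_simp
  refine ⟨e / 8, by positivity, fun x hx => ?_⟩
  obtain ⟨x', ⟨T₀, hT₀⟩, hxx'⟩ := dense_FS x hδ0
  obtain ⟨Jf, f, cf, hf1, hf2, hf3, hf4⟩ := exists_norming x' hδ0 hδ1
  -- the finite set of coordinates
  set T₁ : Finset Sig := T₀ ∪ (Jf.sigma fun m => (f m).support) with hT₁
  set T := sigDown T₁ with hT
  set G : ∀ m, Finset (TNode m) := fib T with hG
  have hGdown : ∀ m, IsDown (G m) := isDown_fib T₁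
  have hfG : ∀ m v, v ∉ G m → f m v = 0 := by
    intro m v hv
    by_cases hm : m ∈ Jf
    · by_contra hne
      apply hv
      rw [hG, mem_fib]
      apply subset_sigDown
      rw [hT₁]
      apply Finset.mem_union_right
      rw [Finset.mem_sigma]
      exact ⟨hm, by simpa using hne⟩
    · rw [(hf3 m hm).1]
      rfl
  have hx'G : ∀ m v, v ∉ G m → toH (x' m) v = 0 := by
    intro m v hv
    apply hT₀
    intro h
    apply hv
    rw [hG, mem_fib]
    exact subset_sigDown (Finset.mem_union_left _ h)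
  refine ⟨coordKer T, isClosed_coordKer T, finiteDimensional_quot_coordKer T, fun y hyF hy => ?_⟩
  have hyG : ∀ m, ∀ v ∈ G m, toH (y m) v = 0 := by
    intro m v hv
    have h1 : (⟨m, v⟩ : Sig) ∈ T := mem_fib.mp hv
    exact mem_coordKer hyF h1
  obtain ⟨Jg, g, cg, hg1, hg2, hg3, hg4⟩ := exists_norming y hδ0 hδ1
  set L := Jf ∪ Jg with hL
  have hLf : ∑ n ∈ L, cf n = ∑ n ∈ Jf, cf n := by
    symm
    refine Finset.sum_subset Finset.subset_union_left fun n _ hn => (hf3 n hn).2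
  have hLg : ∑ n ∈ L, cg n = ∑ n ∈ Jg, cg n := by
    symm
    refine Finset.sum_subset Finset.subset_union_right fun n _ hn => (hg3 n hn).2
  have hLA : ∑ n ∈ L, pair (f n) (toH (x' n)) = ∑ n ∈ Jf, pair (f n) (toH (x' n)) := by
    symm
    refine Finset.sum_subset Finset.subset_union_left fun n _ hn => ?_
    rw [(hf3 n hn).1]
    simp [pair]
  have hLB : ∑ n ∈ L, pair (g n) (toH (y n)) = ∑ n ∈ Jg, pair (g n) (toH (y n)) := by
    symm
    refine Finset.sum_subset Finset.subset_union_right fun n _ hn => ?_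
    rw [(hg3 n hn).1]
    simp [pair]
  have hsum : α ^ 2 * ∑ n ∈ L, cf n + 4 / 3 * κ ^ 2 * ∑ n ∈ L, cg n ≤ 1 := by
    rw [hLf, hLg]
    have h1 : α ^ 2 * ∑ n ∈ Jf, cf n ≤ α ^ 2 * 1 := mul_le_mul_of_nonneg_left hf2 (sq_nonneg _)
    have h2 : 4 / 3 * κ ^ 2 * ∑ n ∈ Jg, cg n ≤ 4 / 3 * κ ^ 2 * 1 :=
      mul_le_mul_of_nonneg_left hg2 (by positivity)
    have h3 : α ^ 2 + 4 / 3 * κ ^ 2 ≤ 1 := by
      rw [hα]
      have h4 : κ ^ 2 ≤ 1 / 4 := by nlinarith
      nlinarith [sq_nonneg κ]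
    linarith
  have hstep := outer_step x' y L G f g cf cg hGdown hf1 hg1 hfG hx'G hyG t hα0 hκ0.le hsum
  rw [hLA, hLB] at hstep
  -- the estimates
  have hx'n : 1 - δ ≤ ‖x'‖ := by
    have := norm_sub_norm_le x x'
    rw [hx] at this
    linarith
  have hA : (1 - δ) * (1 - δ) ≤ ∑ n ∈ Jf, pair (f n) (toH (x' n)) :=
    le_trans (mul_le_mul_of_nonneg_left hx'n (by linarith)) hf4
  have hB : (1 - δ) ≤ ∑ n ∈ Jg, pair (g n) (toH (y n)) := by
    rw [hy, mul_one] at hg4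
    exact hg4
  have hstep2 : 2 * α * ((1 - δ) * (1 - δ)) + e * (1 - δ) ≤ ‖x' + t • y‖ + ‖x' - t • y‖ := by
    refine le_trans ?_ hstep
    have h1 := mul_le_mul_of_nonneg_left hA (by positivity : 0 ≤ 2 * α)
    have h2 := mul_le_mul_of_nonneg_left hB he0.le
    rw [he] at h2 ⊢
    linarith
  have h1 : ‖x' + t • y‖ ≤ ‖x + t • y‖ + δ := by
    have h2 : x' + t • y = (x + t • y) - (x - x') := by abel
    rw [h2]
    exact (norm_sub_le _ _).trans (by linarith)
  have h2 : ‖x' - t • y‖ ≤ ‖x - t • y‖ + δ := by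
    have h3 : x' - t • y = (x - t • y) - (x - x') := by abel
    rw [h3]
    exact (norm_sub_le _ _).trans (by linarith)
  have h3 : ‖x + t • y‖ ≤ max ‖x + t • y‖ ‖x - t • y‖ := le_max_left _ _
  have h4 : ‖x - t • y‖ ≤ max ‖x + t • y‖ ‖x - t • y‖ := le_max_right _ _
  have hfinal : 2 + e / 4 ≤ 2 * α * ((1 - δ) * (1 - δ)) + e * (1 - δ) - 2 * δ :=
    arith_final hα0 hκe hδ0.le hδe hα
  linarith

end Vale.Agent.P069
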