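import Vale.Agent.P069.Amuc

/-!
# No equivalent norm on the `ℓ₂`-sum is asymptotically uniformly convex
-/

open scoped BigOperators ENNReal
open Filter Topology

namespace Vale.Agent.P069

variable {n : ℕ}

open Classical in
/-- The basis vector of a node. -/
noncomputable def eH (v : TNode n) : H n := lp.single 2 v (1 : ℝ)

open Classical in
lemma eH_apply (v u : TNode n) : eH v u = if u = v then 1 else 0 := by
  have h : (lp.single 2 v (1 : ℝ) : H n) u = Pi.single (M := fun _ => ℝ) v (1 : ℝ) u :=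
    lp.single_apply _ _ _ _
  unfold eH
  rw [h, Pi.single_apply]

lemma pair_eH (f : TNode n →₀ ℝ) (v : TNode n) : pair f (eH v) = f v := by
  classical
  rw [pair_eq_sum f _ (subset_refl _)]
  have h1 : ∀ u ∈ f.support, f u * (eH v) u = if u = v then f u else 0 := by
    intro u _
    rw [eH_apply]
    split_ifs <;> simp
  rw [Finset.sum_congr rfl h1, Finset.sum_ite_eq']
  split_ifs with h
  · rfl
  · exact (Finsupp.notMem_support_iff.mp h).symm

lemma one_le_pn_eH (v : TNode n) : 1 ≤ pn (eH v) := by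
  have h1 := anti_sum_sq_le (eH v) (isAnti_singleton v)
  simp only [Finset.sum_singleton] at h1
  rw [eH_apply, if_pos rfl] at h1
  have h2 : (1 : ℝ) ^ 2 ≤ (pn (eH v)) ^ 2 := by simpa using h1
  have h3 := abs_le_of_sq_le_sq h2 (pn_nonneg _)
  rwa [abs_one] at h3

/-- The vector which is `1` on the chain of `w`. -/
noncomputable def chainVec (w : TNode n) : H n :=
  ∑ i ∈ Finset.range (depth w + 1), eH (anc w i)

lemma coe_sum_apply {ι : Type*} (I : Finset ι) (x : ι → H n) (v : TNode n) :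
    (∑ i ∈ I, x i : H n) v = ∑ i ∈ I, x i v := by
  classical
  induction I using Finset.induction_on with
  | empty => simp
  | insert a s ha ih =>
    rw [Finset.sum_insert ha, Finset.sum_insert ha, ← ih]
    rfl

lemma pair_sum_right {ι : Type*} (f : TNode n →₀ ℝ) (I : Finset ι) (x : ι → H n) :
    pair f (∑ i ∈ I, x i : H n) = ∑ i ∈ I, pair f (x i) := by
  rw [pair_eq_sum f _ (subset_refl _)]
  have h1 : ∀ i ∈ I, pair f (x i) = ∑ v ∈ f.support, f v * x i v :=
    fun i _ => pair_eq_sum f _ (subset_refl _)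
  rw [Finset.sum_congr rfl h1, Finset.sum_comm]
  refine Finset.sum_congr rfl fun v _ => ?_
  rw [coe_sum_apply, Finset.mul_sum]

lemma pair_chainVec (f : TNode n →₀ ℝ) (w : TNode n) : pair f (chainVec w) = segSum f w 0 := by
  unfold chainVec segSum
  rw [pair_sum_right, Finset.range_eq_Ico]
  exact Finset.sum_congr rfl fun i _ => pair_eH f _

lemma pn_chainVec_le (w : TNode n) : pn (chainVec w) ≤ 1 := by
  refine pn_le fun f hf => ?_
  rw [pair_chainVec]
  have h := hf.seg w 0
  exact (sq_le_one_iff_abs_le_one _).mp h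

/-- A child of a node. -/
def child (w : TNode n) (hw : depth w < n) (m : ℕ) : TNode n :=
  ⟨w.path ++ [m], by
    have : w.path.length < n := hw
    simp only [List.length_append, List.length_cons, List.length_nil]
    omega⟩

lemma depth_child (w : TNode n) (hw : depth w < n) (m : ℕ) : depth (child w hw m) = depth w + 1 := by
  simp [depth, child]

lemma anc_child (w : TNode n) (hw : depth w < n) (m : ℕ) {i : ℕ} (hi : i ≤ depth w) :
    anc (child w hw m) i = anc w i := by
  ext1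
  simp only [anc, child]
  exact List.take_append_of_le_length hi

lemma child_injective (w : TNode n) (hw : depth w < n) : Function.Injective (child w hw) := by
  intro m m' h
  have h1 := congrArg TNode.path h
  simp only [child] at h1
  simpa using h1

lemma chainVec_child (w : TNode n) (hw : depth w < n) (m : ℕ) :
    chainVec (child w hw m) = chainVec w + eH (child w hw m) := by
  unfold chainVec
  rw [depth_child, Finset.sum_range_succ]
  congr 1
  · refine Finset.sum_congr rfl fun i hi => ?_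
    rw [anc_child]
    have := Finset.mem_range.mp hi
    omega
  · rw [← depth_child w hw m, anc_depth]

/-- The children of a node satisfy an upper `ℓ₂` estimate. -/
lemma pn_children_le (w : TNode n) (hw : depth w < n) (M : Finset ℕ) (b : ℕ → ℝ) :
    pn (∑ m ∈ M, b m • eH (child w hw m) : H n) ≤ Real.sqrt (∑ m ∈ M, (b m) ^ 2) := by
  classical
  refine pn_le fun f hf => ?_
  rw [pair_sum_right]
  have h1 : ∀ m ∈ M, pair f (b m • eH (child w hw m) : H n) = b m * f (child w hw m) := by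
    intro m _
    have := pair_smul_right f (b m) (eH (child w hw m))
    rw [pair_eH] at this
    exact this
  rw [Finset.sum_congr rfl h1]
  have h2 := Finset.sum_mul_sq_le_sq_mul_sq M b fun m => f (child w hw m)
  set A := M.image (child w hw) with hA
  have hAanti : IsAnti A := by
    refine subset_isAnti ?_ (isAnti_level A (depth w + 1))
    intro v hv
    refine Finset.mem_filter.mpr ⟨hv, ?_⟩
    obtain ⟨m, _, rfl⟩ := Finset.mem_image.mp hv
    exact depth_child w hw m
  have h3 : ∑ m ∈ M, (f (child w hw m)) ^ 2 ≤ 1 := by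
    have h4 := hf.anti A hAanti
    rwa [hA, Finset.sum_image (fun _ _ _ _ h => child_injective w hw h)] at h4
  have h5 : 0 ≤ ∑ m ∈ M, (b m) ^ 2 := Finset.sum_nonneg fun _ _ => sq_nonneg _
  apply Real.abs_le_sqrt
  calc _ ≤ _ := h2
    _ ≤ (∑ m ∈ M, (b m) ^ 2) * 1 := mul_le_mul_of_nonneg_left h3 h5
    _ = _ := mul_one _

/-- The inclusion of a vector of a tree in the sum. -/
noncomputable def inY (u : H n) : Y := iota (fun n => X n) n (toH.symm u)

lemma norm_inY (u : H n) : ‖inY u‖ = pn u := by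
  unfold inY
  have h1 : ‖(lp.single 2 n (toH.symm u) : lp (fun n => X n) 2)‖ = ‖(toH.symm u : X n)‖ :=
    lp.norm_single (p := 2) (by norm_num) n _
  have h2 : ‖(toH.symm u : X n)‖ = pn u := by
    rw [norm_X, LinearEquiv.apply_symm_apply]
  rw [← h2, ← h1]
  rfl

lemma inY_add (u v : H n) : inY (u + v) = inY u + inY v := by
  unfold inY
  rw [map_add, map_add]

lemma inY_smul (c : ℝ) (u : H n) : inY (c • u) = c • inY u := by
  unfold inY
  rw [map_smul, map_smul]

lemma inY_sum {ι : Type*} (I : Finset ι) (x : ι → H n) :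
    inY (∑ i ∈ I, x i) = ∑ i ∈ I, inY (x i) := by
  unfold inY
  rw [map_sum, map_sum]

/-- The children are weakly null in the sum. -/
lemma children_weakly_null (w : TNode n) (hw : depth w < n) (Ψ : StrongDual ℝ Y) :
    Tendsto (fun m => Ψ (inY (eH (child w hw m)))) atTop (𝓝 0) := by
  set b : ℕ → ℝ := fun m => Ψ (inY (eH (child w hw m))) with hb
  have hsum : ∀ M : Finset ℕ, ∑ m ∈ M, (b m) ^ 2 ≤ ‖Ψ‖ ^ 2 := by
    intro M
    set S := ∑ m ∈ M, (b m) ^ 2 with hS
    have hS0 : 0 ≤ S := Finset.sum_nonneg fun _ _ => sq_nonneg _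
    set u : H n := ∑ m ∈ M, b m • eH (child w hw m) with hu
    have h1 : Ψ (inY u) = S := by
      rw [hu, inY_sum, map_sum, hS]
      refine Finset.sum_congr rfl fun m _ => ?_
      rw [inY_smul, map_smul, smul_eq_mul, sq]
    have h2 : ‖inY u‖ ≤ Real.sqrt S := by
      rw [norm_inY]
      exact pn_children_le w hw M b
    have h3 : S ≤ ‖Ψ‖ * Real.sqrt S :=
      calc S = Ψ (inY u) := h1.symm
        _ ≤ |Ψ (inY u)| := le_abs_self _
        _ ≤ ‖Ψ‖ * ‖inY u‖ := Ψ.le_opNorm _
        _ ≤ ‖Ψ‖ * Real.sqrt S := mul_le_mul_of_nonneg_left h2 (norm_nonneg _)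
    rcases hS0.eq_or_lt with h0 | hpos
    · rw [← h0]
      positivity
    have hs : 0 < Real.sqrt S := Real.sqrt_pos.mpr hpos
    have h4 : Real.sqrt S ≤ ‖Ψ‖ := by
      have h21 : Real.sqrt S * Real.sqrt S ≤ ‖Ψ‖ * Real.sqrt S := by
        rw [Real.mul_self_sqrt hS0]
        exact h3
      exact le_of_mul_le_mul_right h21 hs
    calc S = (Real.sqrt S) ^ 2 := (Real.sq_sqrt hS0).symm
      _ ≤ ‖Ψ‖ ^ 2 := pow_le_pow_left₀ hs.le h4 2
  have hsummable : Summable fun m => (b m) ^ 2 :=
    summable_of_sum_le (fun _ => sq_nonneg _) hsum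
  have h1 : Tendsto (fun m => (b m) ^ 2) atTop (𝓝 0) := by
    have := hsummable.tendsto_cofinite_zero
    rwa [Nat.cofinite_eq_atTop] at this
  have h2 : Tendsto (fun m => |b m|) atTop (𝓝 0) := by
    have h3 := (Real.continuous_sqrt.tendsto 0).comp h1
    simp only [Real.sqrt_zero] at h3
    refine h3.congr fun m => ?_
    simp [Real.sqrt_sq_eq_abs]
  exact (tendsto_zero_iff_abs_tendsto_zero _).mpr h2

/-- Weakly null sequences come close to closed subspaces of finite codimension. -/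
lemma exists_near {E : Type*} [NormedAddCommGroup E] [NormedSpace ℝ E] (F : Submodule ℝ E)
    (hF : IsClosed (F : Set E)) (hfd : FiniteDimensional ℝ (E ⧸ F)) (e : ℕ → E)
    (he : ∀ Ψ : StrongDual ℝ E, Tendsto (fun m => Ψ (e m)) atTop (𝓝 0)) {ε : ℝ} (hε : 0 < ε) :
    ∃ m, ∃ y ∈ F, ‖e m - y‖ < ε := by
  have : IsClosed (F : Set E) := hF
  have : T2Space (E ⧸ F) := by
    have := Submodule.t3_quotient_of_isClosed F
    infer_instance
  let b := Module.finBasis ℝ (E ⧸ F)
  choose u hu using fun i => Submodule.mkQ_surjective F (b i)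
  have hq : Continuous F.mkQ := continuous_quot_mk
  let Ψ : Fin (Module.finrank ℝ (E ⧸ F)) → StrongDual ℝ E := fun i =>
    ⟨(b.coord i).comp F.mkQ, (LinearMap.continuous_of_finiteDimensional (b.coord i)).comp hq⟩
  have hΨ : ∀ i z, Ψ i z = b.repr (F.mkQ z) i := fun i z => rfl
  set D := ∑ i, ‖u i‖ + 1 with hD
  have hD0 : 0 < D := by
    have : 0 ≤ ∑ i, ‖u i‖ := Finset.sum_nonneg fun _ _ => norm_nonneg _
    linarith
  set δ := ε / D with hδ
  have hδ0 : 0 < δ := div_pos hε hD0
  have hev : ∀ᶠ m in atTop, ∀ i, |Ψ i (e m)| < δ := by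
    rw [Filter.eventually_all]
    intro i
    have h1 := (tendsto_zero_iff_abs_tendsto_zero _).mp (he (Ψ i))
    exact h1.eventually (gt_mem_nhds hδ0)
  obtain ⟨m, hm⟩ := hev.exists
  refine ⟨m, e m - ∑ i, Ψ i (e m) • u i, ?_, ?_⟩
  · rw [← Submodule.Quotient.mk_eq_zero F]
    have h1 : (Submodule.Quotient.mk (e m - ∑ i, Ψ i (e m) • u i) : E ⧸ F) =
        F.mkQ (e m - ∑ i, Ψ i (e m) • u i) := rfl
    rw [h1, map_sub, map_sum]
    have h2 : ∀ i, F.mkQ (Ψ i (e m) • u i) = b.repr (F.mkQ (e m)) i • b i := by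
      intro i
      rw [map_smul, hu, hΨ]
    rw [Finset.sum_congr rfl fun i _ => h2 i, b.sum_repr]
    simp
  · have h1 : e m - (e m - ∑ i, Ψ i (e m) • u i) = ∑ i, Ψ i (e m) • u i := by abel
    rw [h1]
    calc ‖∑ i, Ψ i (e m) • u i‖ ≤ ∑ i, ‖Ψ i (e m) • u i‖ := norm_sum_le _ _
      _ ≤ ∑ i, δ * ‖u i‖ := Finset.sum_le_sum fun i _ => by
          rw [norm_smul, Real.norm_eq_abs]
          exact mul_le_mul_of_nonneg_right (hm i).le (norm_nonneg _)
      _ = δ * ∑ i, ‖u i‖ := by rw [Finset.mul_sum]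
      _ < δ * D := mul_lt_mul_of_pos_left (by linarith) hδ0
      _ = ε := by rw [hδ]; field_simp

/-- Convexity along a ray. -/
lemma conv_step {E : Type*} [NormedAddCommGroup E] [NormedSpace ℝ E] (N : E → ℝ)
    (hadd : ∀ x y, N (x + y) ≤ N x + N y) (hsmul : ∀ (c : ℝ) x, N (c • x) = |c| * N x)
    {x yh : E} {t₀ τ c : ℝ} (hNx : N x = 1) (ht₀ : 0 < t₀) (hτt : t₀ ≤ τ) (hc : 0 < c)
    (h : c ≤ N (x + t₀ • yh) - 1) : 1 + c ≤ N (x + τ • yh) := by
  have hτ0 : 0 < τ := lt_of_lt_of_le ht₀ hτt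
  obtain ⟨θ, hθ⟩ : ∃ θ, θ = t₀ / τ := ⟨_, rfl⟩
  have hθ0 : 0 < θ := by
    rw [hθ]
    exact div_pos ht₀ hτ0
  have hθ1 : θ ≤ 1 := by
    rw [hθ]
    exact (div_le_one hτ0).mpr hτt
  have hθτ : θ * τ = t₀ := by
    rw [hθ]
    field_simp
  have hconv : x + t₀ • yh = (1 - θ) • x + θ • (x + τ • yh) := by
    rw [smul_add, smul_smul, hθτ, sub_smul, one_smul]
    abel
  have h2 : N (x + t₀ • yh) ≤ (1 - θ) + θ * N (x + τ • yh) := by
    rw [hconv]
    refine (hadd _ _).trans ?_
    rw [hsmul (1 - θ), hsmul θ, abs_of_nonneg (by linarith : 0 ≤ 1 - θ), abs_of_pos hθ0, hNx,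
      mul_one]
  have h6 : θ * c ≤ θ * (N (x + τ • yh) - 1) := by
    have : c ≤ θ * (N (x + τ • yh) - 1) := by linarith
    have h7 : θ * c ≤ 1 * c := mul_le_mul_of_nonneg_right hθ1 hc.le
    linarith
  have := le_of_mul_le_mul_left h6 hθ0
  linarith

/-- One step of the tree argument, for an arbitrary equivalent norm. -/
lemma step_abs {E : Type*} [NormedAddCommGroup E] [NormedSpace ℝ E] (N : E → ℝ)
    (hadd : ∀ x y, N (x + y) ≤ N x + N y) (hsmul : ∀ (c : ℝ) x, N (c • x) = |c| * N x)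
    {a b : ℝ} (ha : 0 < a) (hb : 0 < b) (hab : ∀ x, a * ‖x‖ ≤ N x ∧ N x ≤ b * ‖x‖)
    {c : ℝ} (hc : 0 < c) (u : E) (hs1 : a ≤ N u) (hs2 : N u ≤ b) (F : Submodule ℝ E)
    (hF : IsClosed (F : Set E)) (hfd : FiniteDimensional ℝ (E ⧸ F))
    (hFy : ∀ y ∈ F, N y = 1 → c ≤ N ((N u)⁻¹ • u + (a / (2 * b)) • y) - 1)
    (e : ℕ → E) (he1 : ∀ m, 1 ≤ ‖e m‖)
    (he : ∀ Ψ : StrongDual ℝ E, Tendsto (fun m => Ψ (e m)) atTop (𝓝 0)) :
    ∃ m, N u * (1 + c / 2) ≤ N (u + e m) := by
  have hs0 : 0 < N u := lt_of_lt_of_le ha hs1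
  obtain ⟨ε, hε0, hε1, hε2⟩ : ∃ ε : ℝ, 0 < ε ∧ ε ≤ a / (2 * b) ∧ ε ≤ a * c / (2 * b) :=
    ⟨min (a / (2 * b)) (a * c / (2 * b)), lt_min (by positivity) (by positivity),
      min_le_left _ _, min_le_right _ _⟩
  obtain ⟨m, y, hyF, hy⟩ := exists_near F hF hfd e he hε0
  refine ⟨m, ?_⟩
  have hNd : N (e m - y) ≤ b * ε :=
    (hab _).2.trans (mul_le_mul_of_nonneg_left hy.le hb.le)
  have hbε1 : b * ε ≤ a / 2 := by
    calc b * ε ≤ b * (a / (2 * b)) := mul_le_mul_of_nonneg_left hε1 hb.le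
      _ = a / 2 := by field_simp
  have hbε2 : b * ε ≤ a * c / 2 := by
    calc b * ε ≤ b * (a * c / (2 * b)) := mul_le_mul_of_nonneg_left hε2 hb.le
      _ = a * c / 2 := by field_simp
  have hNe : a ≤ N (e m) := by
    have h1 := (hab (e m)).1
    have h2 : a * 1 ≤ a * ‖e m‖ := mul_le_mul_of_nonneg_left (he1 m) ha.le
    linarith
  have hNy : a / 2 ≤ N y := by
    have h1 : N (e m) ≤ N y + N (e m - y) := by
      have := hadd y (e m - y)
      rwa [add_sub_cancel] at this
    linarith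
  have hNy0 : 0 < N y := by linarith
  -- the normalised vector of `F`
  obtain ⟨yh, hyh⟩ : ∃ yh, yh = (N y)⁻¹ • y := ⟨_, rfl⟩
  have hyh1 : N yh = 1 := by
    rw [hyh, hsmul, abs_of_pos (inv_pos.mpr hNy0)]
    field_simp
  have hyhF : yh ∈ F := by
    rw [hyh]
    exact F.smul_mem _ hyF
  have h1 := hFy yh hyhF hyh1
  have ht₀0 : 0 < a / (2 * b) := by positivity
  have hNx : N ((N u)⁻¹ • u) = 1 := by
    rw [hsmul, abs_of_pos (inv_pos.mpr hs0)]
    field_simp
  have hτt : a / (2 * b) ≤ N y / N u := by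
    have h2 : a / (2 * b) = (a / 2) / b := by field_simp
    rw [h2]
    exact div_le_div₀ hNy0.le hNy hs0 hs2
  have h5 := conv_step N hadd hsmul hNx ht₀0 hτt hc h1
  have h3 : (N u)⁻¹ • u + (N y / N u) • yh = (N u)⁻¹ • (u + y) := by
    rw [smul_add, hyh, smul_smul]
    have h4 : N y / N u * (N y)⁻¹ = (N u)⁻¹ := by
      field_simp
    rw [h4]
  have h4 : N ((N u)⁻¹ • u + (N y / N u) • yh) = (N u)⁻¹ * N (u + y) := by
    rw [h3, hsmul, abs_of_pos (inv_pos.mpr hs0)]
  have h6 : N u * (1 + c) ≤ N (u + y) := by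
    rw [h4] at h5
    have h7 := mul_le_mul_of_nonneg_left h5 hs0.le
    rw [← mul_assoc, mul_inv_cancel₀ hs0.ne', one_mul] at h7
    exact h7
  have h7 : N (u + y) ≤ N (u + e m) + N (y - e m) := by
    have := hadd (u + e m) (y - e m)
    have h8 : u + e m + (y - e m) = u + y := by abel
    rwa [h8] at this
  have h8 : N (y - e m) = N (e m - y) := by
    have h9 : y - e m = (-1 : ℝ) • (e m - y) := by
      rw [neg_one_smul, neg_sub]
    rw [h9, hsmul]
    simp
  have h9 : a * c / 2 ≤ N u * c / 2 := by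
    have := mul_le_mul_of_nonneg_right hs1 hc.le
    linarith
  have h10 : N u * (1 + c / 2) = N u * (1 + c) - N u * c / 2 := by ring
  rw [h10]
  linarith

/-- The root of a tree. -/
def root (n : ℕ) : TNode n := ⟨[], by simp⟩

lemma depth_root (n : ℕ) : depth (root n) = 0 := rfl

lemma chainVec_root (n : ℕ) : chainVec (root n) = eH (root n) := by
  unfold chainVec
  rw [depth_root]
  simp only [zero_add, Finset.range_one, Finset.sum_singleton]
  rw [anc_of_le _ (by rw [depth_root])]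

/-- The contradiction with asymptotic uniform convexity. -/
theorem no_auc (N : Y → ℝ) (hadd : ∀ x y, N (x + y) ≤ N x + N y)
    (hsmul : ∀ (c : ℝ) x, N (c • x) = |c| * N x) {a b : ℝ} (ha : 0 < a) (hb : 0 < b)
    (hab : ∀ x, a * ‖x‖ ≤ N x ∧ N x ≤ b * ‖x‖)
    (hauc : ∀ t : ℝ, 0 < t → ∃ c : ℝ, 0 < c ∧ ∀ x : Y, N x = 1 →
      ∃ F : Submodule ℝ Y, IsClosed (F : Set Y) ∧ FiniteDimensional ℝ (Y ⧸ F) ∧
        ∀ y ∈ F, N y = 1 → c ≤ N (x + t • y) - 1) : False := by
  obtain ⟨c, hc, hcF⟩ := hauc (a / (2 * b)) (by positivity)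
  have hgrow : (1 : ℝ) < 1 + c / 2 := by linarith
  obtain ⟨n, hn⟩ := pow_unbounded_of_one_lt (b / a) hgrow
  have hpow : ∀ k : ℕ, 1 ≤ (1 + c / 2) ^ k := fun k => one_le_pow₀ hgrow.le
  have hupper : ∀ w : TNode n, N (inY (chainVec w)) ≤ b := by
    intro w
    have h1 := (hab (inY (chainVec w))).2
    rw [norm_inY] at h1
    have h2 := mul_le_mul_of_nonneg_left (pn_chainVec_le w) hb.le
    linarith
  have claim : ∀ k, k ≤ n → ∃ w : TNode n, depth w = k ∧
      a * (1 + c / 2) ^ k ≤ N (inY (chainVec w)) := by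
    intro k
    induction k with
    | zero =>
      intro _
      refine ⟨root n, rfl, ?_⟩
      rw [chainVec_root, pow_zero, mul_one]
      have h1 := (hab (inY (eH (root n)))).1
      rw [norm_inY] at h1
      have h2 := mul_le_mul_of_nonneg_left (one_le_pn_eH (root n)) ha.le
      linarith
    | succ k ih =>
      intro hk
      obtain ⟨w, hw, hwN⟩ := ih (by omega)
      have hdw : depth w < n := by omega
      set u := inY (chainVec w) with hu
      have hs1 : a ≤ N u := by
        have h2 := mul_le_mul_of_nonneg_left (hpow k) ha.le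
        linarith
      have hs2 : N u ≤ b := hupper w
      have hs0 : 0 < N u := by linarith
      have hNx : N ((N u)⁻¹ • u) = 1 := by
        rw [hsmul, abs_of_pos (inv_pos.mpr hs0)]
        field_simp
      obtain ⟨F, hF, hfd, hFy⟩ := hcF _ hNx
      obtain ⟨m, hm⟩ := step_abs N hadd hsmul ha hb hab hc u hs1 hs2 F hF hfd hFy
        (fun m => inY (eH (child w hdw m)))
        (fun m => by
          rw [norm_inY]
          exact one_le_pn_eH _)
        (children_weakly_null w hdw)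
      refine ⟨child w hdw m, by rw [depth_child, hw], ?_⟩
      rw [chainVec_child, inY_add, pow_succ, ← mul_assoc]
      refine le_trans ?_ hm
      exact mul_le_mul_of_nonneg_right hwN (by linarith)
  obtain ⟨w, _, hw2⟩ := claim n le_rfl
  have h3 := hupper w
  have h4 : b / a * a = b := by field_simp
  have h5 : b / a * a < (1 + c / 2) ^ n * a := mul_lt_mul_of_pos_right hn ha
  nlinarith

/-- The sum is infinite dimensional. -/
theorem not_finiteDimensional_Y : ¬ FiniteDimensional ℝ Y := by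
  intro hfd
  have hr : depth (root 1) < 1 := by rw [depth_root]; norm_num
  have hcl : IsClosed ((⊥ : Submodule ℝ Y) : Set Y) := by
    rw [Submodule.bot_coe]
    exact isClosed_singleton
  have hq : FiniteDimensional ℝ (Y ⧸ (⊥ : Submodule ℝ Y)) := inferInstance
  obtain ⟨m, y, hy, hnear⟩ := exists_near (⊥ : Submodule ℝ Y) hcl hq
    (fun m => inY (eH (child (root 1) hr m)))
    (children_weakly_null (root 1) hr) (ε := 1 / 2) (by norm_num)
  rw [Submodule.mem_bot] at hy
  rw [hy, sub_zero, norm_inY] at hnear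
  have := one_le_pn_eH (child (root 1) hr m)
  linarith

end Vale.Agent.P069
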