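import Vale.Agent.P069.Space

/-!
# Reflexivity of the `ℓ₂`-sum
-/

open scoped BigOperators ENNReal

namespace Vale.Agent.P069

/-- Every element of the bidual is an evaluation. -/
def Refl (E : Type*) [NormedAddCommGroup E] [NormedSpace ℝ E] : Prop :=
  ∀ Φ : StrongDual ℝ (StrongDual ℝ E), ∃ x : E, ∀ ψ, Φ ψ = ψ x

lemma refl_of_equiv {E F : Type*} [NormedAddCommGroup E] [NormedSpace ℝ E]
    [NormedAddCommGroup F] [NormedSpace ℝ F] (e : E ≃L[ℝ] F) (h : Refl F) : Refl E := by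
  intro Φ
  let T : StrongDual ℝ F →L[ℝ] StrongDual ℝ E :=
    (ContinuousLinearMap.compL ℝ E F ℝ).flip (e : E →L[ℝ] F)
  obtain ⟨y, hy⟩ := h (Φ.comp T)
  refine ⟨e.symm y, fun ψ => ?_⟩
  let ψ' : StrongDual ℝ F := ψ.comp (e.symm : F →L[ℝ] E)
  have h1 : T ψ' = ψ := by
    ext z
    simp [T, ψ']
  have h2 := hy ψ'
  simp only [ContinuousLinearMap.comp_apply, h1] at h2
  rw [h2]
  rfl

lemma refl_hilbert (E : Type*) [NormedAddCommGroup E] [InnerProductSpace ℝ E] [CompleteSpace E] :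
    Refl E := by
  intro Φ
  let L : E →ₗ[ℝ] ℝ :=
    { toFun := fun u => Φ (InnerProductSpace.toDual ℝ E u)
      map_add' := fun u v => by simp
      map_smul' := fun c u => by simp }
  have hL : ∀ u, ‖L u‖ ≤ ‖Φ‖ * ‖u‖ := fun u => by
    have h1 := Φ.le_opNorm (InnerProductSpace.toDual ℝ E u)
    have h2 : ‖(InnerProductSpace.toDual ℝ E) u‖ = ‖u‖ := LinearIsometryEquiv.norm_map _ _
    rw [h2] at h1
    exact h1
  let L' : StrongDual ℝ E := L.mkContinuous ‖Φ‖ hL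
  refine ⟨(InnerProductSpace.toDual ℝ E).symm L', fun ψ => ?_⟩
  have h1 : Φ ψ = L ((InnerProductSpace.toDual ℝ E).symm ψ) := by
    simp [L]
  have h2 : L ((InnerProductSpace.toDual ℝ E).symm ψ) =
      L' ((InnerProductSpace.toDual ℝ E).symm ψ) := rfl
  rw [h1, h2, ← InnerProductSpace.toDual_symm_apply, real_inner_comm,
    InnerProductSpace.toDual_symm_apply]

section Outer

variable {E : ℕ → Type*} [∀ n, NormedAddCommGroup (E n)] [∀ n, NormedSpace ℝ (E n)]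

lemma lp_two_toReal : (2 : ℝ≥0∞).toReal = 2 := by simp

lemma sum_norm_sq_le (z : lp E 2) (J : Finset ℕ) : ∑ n ∈ J, ‖z n‖ ^ 2 ≤ ‖z‖ ^ 2 := by
  have h := lp.sum_rpow_le_norm_rpow (p := 2) (by simp) z J
  simpa only [lp_two_toReal, Real.rpow_two] using h

lemma norm_sum_single_sq (w : ∀ n, E n) (J : Finset ℕ) :
    ‖∑ n ∈ J, lp.single 2 n (w n)‖ ^ 2 = ∑ n ∈ J, ‖w n‖ ^ 2 := by
  have h := lp.norm_sum_single (p := 2) (by simp) w J
  simpa only [lp_two_toReal, Real.rpow_two] using h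

/-- The inclusion of the `n`-th summand. -/
noncomputable abbrev iota (E : ℕ → Type*) [∀ n, NormedAddCommGroup (E n)]
    [∀ n, NormedSpace ℝ (E n)] (n : ℕ) : E n →L[ℝ] lp E 2 :=
  lp.singleContinuousLinearMap ℝ E 2 n

/-- The projection onto the `n`-th summand. -/
noncomputable abbrev proj (E : ℕ → Type*) [∀ n, NormedAddCommGroup (E n)]
    [∀ n, NormedSpace ℝ (E n)] (n : ℕ) : lp E 2 →L[ℝ] E n :=
  lp.evalCLM ℝ E 2 n

/-- Cauchy-Schwarz for functionals against vectors in the sum. -/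
lemma sum_opNorm_sq_le (Ψ : StrongDual ℝ (lp E 2)) (J : Finset ℕ) :
    ∑ n ∈ J, ‖Ψ.comp (iota E n)‖ ^ 2 ≤ ‖Ψ‖ ^ 2 := by
  set a : ℕ → ℝ := fun n => ‖Ψ.comp (iota E n)‖ with ha
  set S := ∑ n ∈ J, (a n) ^ 2 with hS
  have hS0 : 0 ≤ S := Finset.sum_nonneg fun _ _ => sq_nonneg _
  have key : ∀ ρ : ℝ, 0 < ρ → ρ < 1 → ρ * S ≤ ‖Ψ‖ * Real.sqrt S := by
    intro ρ hρ hρ1
    have hz : ∀ n, ∃ w : E n, ‖w‖ ≤ 1 ∧ ρ * a n ≤ Ψ (iota E n w) := by
      intro n
      rcases (norm_nonneg (Ψ.comp (iota E n))).eq_or_lt with h0 | hpos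
      · refine ⟨0, by simp, ?_⟩
        have : a n = 0 := h0.symm
        simp [this]
      · have hlt : ρ * a n < ‖Ψ.comp (iota E n)‖ := by
          have : ρ * a n < 1 * a n := mul_lt_mul_of_pos_right hρ1 hpos
          simpa [ha] using this
        obtain ⟨w, hw, hw2⟩ := (Ψ.comp (iota E n)).exists_lt_apply_of_lt_opNorm hlt
        have hw1 : ‖w‖ < 1 := by simpa using hw
        rcases le_total 0 (Ψ (iota E n w)) with hs | hs
        · refine ⟨w, hw1.le, ?_⟩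
          simp only [ContinuousLinearMap.comp_apply, Real.norm_eq_abs] at hw2
          rw [abs_of_nonneg hs] at hw2
          exact hw2.le
        · refine ⟨-w, by simpa using hw1.le, ?_⟩
          simp only [ContinuousLinearMap.comp_apply, Real.norm_eq_abs] at hw2
          rw [abs_of_nonpos hs] at hw2
          rw [map_neg, map_neg]
          exact hw2.le
    choose w hw1 hw2 using hz
    set z : lp E 2 := ∑ n ∈ J, lp.single 2 n (a n • w n) with hz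
    have hz2 : ‖z‖ ^ 2 ≤ S := by
      rw [hz, norm_sum_single_sq]
      refine Finset.sum_le_sum fun n _ => ?_
      rw [norm_smul, mul_pow, Real.norm_eq_abs, sq_abs]
      have h1 : ‖w n‖ ^ 2 ≤ 1 := pow_le_one₀ (norm_nonneg _) (hw1 n)
      have h2 : 0 ≤ (a n) ^ 2 := sq_nonneg _
      nlinarith
    have hz3 : ‖z‖ ≤ Real.sqrt S := Real.le_sqrt_of_sq_le hz2
    have hval : ρ * S ≤ Ψ z := by
      have h1 : Ψ z = ∑ n ∈ J, a n * Ψ (iota E n (w n)) := by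
        rw [hz, map_sum]
        refine Finset.sum_congr rfl fun n _ => ?_
        have : lp.single 2 n (a n • w n) = a n • iota E n (w n) := by
          rw [← map_smul]
          rfl
        rw [this, map_smul, smul_eq_mul]
      rw [h1, hS, Finset.mul_sum]
      refine Finset.sum_le_sum fun n _ => ?_
      have h2 : 0 ≤ a n := norm_nonneg _
      have h3 := hw2 n
      nlinarith
    have hle : Ψ z ≤ ‖Ψ‖ * ‖z‖ := (le_abs_self _).trans (Ψ.le_opNorm z)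
    exact hval.trans (hle.trans (mul_le_mul_of_nonneg_left hz3 (norm_nonneg _)))
  have h1 : Real.sqrt S ≤ ‖Ψ‖ := by
    rcases hS0.eq_or_lt with h0 | hpos
    · rw [← h0]; simp
    have hs : 0 < Real.sqrt S := Real.sqrt_pos.mpr hpos
    refine le_of_forall_lt_imp_le_of_dense ?_
    intro r hr
    by_contra hcon
    push Not at hcon
    by_cases hr0 : r ≤ 0
    · linarith [norm_nonneg Ψ]
    push Not at hr0
    set ρ := r / Real.sqrt S with hρ
    have hρ0 : 0 < ρ := div_pos hr0 hs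
    have hρ1 : ρ < 1 := (div_lt_one hs).mpr hr
    have := key ρ hρ0 hρ1
    have hSs : S = Real.sqrt S * Real.sqrt S := (Real.mul_self_sqrt hS0).symm
    have h2 : ρ * S = r * Real.sqrt S := by
      have h21 : ρ * Real.sqrt S = r := by
        rw [hρ]
        field_simp
      calc ρ * S = ρ * (Real.sqrt S * Real.sqrt S) := by rw [Real.mul_self_sqrt hS0]
        _ = (ρ * Real.sqrt S) * Real.sqrt S := by ring
        _ = r * Real.sqrt S := by rw [h21]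
    rw [h2] at this
    have h3 := le_of_mul_le_mul_right this hs
    linarith
  have h2 : S = (Real.sqrt S) ^ 2 := (Real.sq_sqrt hS0).symm
  rw [h2]
  exact pow_le_pow_left₀ (Real.sqrt_nonneg _) h1 2

/-- Tail estimate for a functional on the sum. -/
lemma exists_tail (Ψ : StrongDual ℝ (lp E 2)) {ε : ℝ} (hε : 0 < ε) :
    ∃ J : Finset ℕ, ∀ z : lp E 2, |Ψ z - ∑ n ∈ J, Ψ (iota E n (z n))| ≤ ε * ‖z‖ := by
  set a : ℕ → ℝ := fun n => ‖Ψ.comp (iota E n)‖ with ha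
  have hsummable : Summable fun n => (a n) ^ 2 :=
    summable_of_sum_le (fun _ => sq_nonneg _) (sum_opNorm_sq_le Ψ)
  have hnhds : Set.Iio (ε ^ 2) ∈ nhds (0 : ℝ) := Iio_mem_nhds (by positivity)
  obtain ⟨J, hJ⟩ := hsummable.vanishing hnhds
  refine ⟨J, fun z => ?_⟩
  have hs : HasSum (fun n => Ψ (iota E n (z n))) (Ψ z) := by
    have h1 := lp.hasSum_single (p := 2) (by simp) z
    exact h1.mapL Ψ
  have hev : ∀ᶠ J' in Filter.atTop, |∑ n ∈ J', Ψ (iota E n (z n)) - ∑ n ∈ J, Ψ (iota E n (z n))|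
      ≤ ε * ‖z‖ := by
    filter_upwards [Filter.eventually_ge_atTop J] with J' hJ'
    have hdiff : ∑ n ∈ J', Ψ (iota E n (z n)) - ∑ n ∈ J, Ψ (iota E n (z n)) =
        ∑ n ∈ J' \ J, Ψ (iota E n (z n)) := by
      rw [← Finset.sum_sdiff hJ']
      ring
    rw [hdiff]
    have h1 : |∑ n ∈ J' \ J, Ψ (iota E n (z n))| ≤ ∑ n ∈ J' \ J, a n * ‖z n‖ := by
      refine (Finset.abs_sum_le_sum_abs _ _).trans (Finset.sum_le_sum fun n _ => ?_)
      exact (Ψ.comp (iota E n)).le_opNorm (z n)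
    have h2 := Real.sum_mul_le_sqrt_mul_sqrt (J' \ J) a fun n => ‖z n‖
    have h3 : ∑ n ∈ J' \ J, (a n) ^ 2 < ε ^ 2 := hJ _ Finset.sdiff_disjoint
    have h4 : ∑ n ∈ J' \ J, ‖z n‖ ^ 2 ≤ ‖z‖ ^ 2 := sum_norm_sq_le z _
    have h5 : Real.sqrt (∑ n ∈ J' \ J, (a n) ^ 2) ≤ ε := by
      rw [show ε = Real.sqrt (ε ^ 2) from (Real.sqrt_sq hε.le).symm]
      exact Real.sqrt_le_sqrt h3.le
    have h6 : Real.sqrt (∑ n ∈ J' \ J, ‖z n‖ ^ 2) ≤ ‖z‖ := by
      rw [show ‖z‖ = Real.sqrt (‖z‖ ^ 2) from (Real.sqrt_sq (norm_nonneg _)).symm]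
      exact Real.sqrt_le_sqrt h4
    calc _ ≤ _ := h1
      _ ≤ _ := h2
      _ ≤ ε * ‖z‖ := mul_le_mul h5 h6 (Real.sqrt_nonneg _) hε.le
  have hlim : Filter.Tendsto (fun J' => |∑ n ∈ J', Ψ (iota E n (z n)) -
      ∑ n ∈ J, Ψ (iota E n (z n))|) Filter.atTop
      (nhds |Ψ z - ∑ n ∈ J, Ψ (iota E n (z n))|) :=
    (hs.sub_const _).abs
  exact le_of_tendsto hlim hev

/-- The `ℓ₂`-sum of reflexive spaces is reflexive. -/
theorem refl_lp (hE : ∀ n, Refl (E n)) : Refl (lp E 2) := by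
  intro Φ
  -- the map `ψ ↦ ψ ∘ proj n`
  let T : ∀ n, StrongDual ℝ (E n) →L[ℝ] StrongDual ℝ (lp E 2) := fun n =>
    (ContinuousLinearMap.compL ℝ (lp E 2) (E n) ℝ).flip (proj E n)
  have hT : ∀ n (ψ : StrongDual ℝ (E n)) (z : lp E 2), T n ψ z = ψ (z n) := fun n ψ z => rfl
  choose x hx using fun n => hE n (Φ.comp (T n))
  have hx' : ∀ n ψ, Φ (T n ψ) = ψ (x n) := fun n ψ => hx n ψ
  -- square summability of the candidate
  have hsum : ∀ J : Finset ℕ, ∑ n ∈ J, ‖x n‖ ^ 2 ≤ ‖Φ‖ ^ 2 := by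
    intro J
    set S := ∑ n ∈ J, ‖x n‖ ^ 2 with hS
    have hS0 : 0 ≤ S := Finset.sum_nonneg fun _ _ => sq_nonneg _
    choose g hg1 hg2 using fun n => exists_dual_vector'' ℝ (x n)
    let Ψ : StrongDual ℝ (lp E 2) := ∑ n ∈ J, ‖x n‖ • T n (g n)
    have hval : Φ Ψ = S := by
      simp only [Ψ, map_sum, map_smul, hx', hg2, smul_eq_mul]
      rw [hS]
      refine Finset.sum_congr rfl fun n _ => ?_
      simp only [RCLike.ofReal_real_eq_id, id_eq]
      ring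
    have hnorm : ‖Ψ‖ ≤ Real.sqrt S := by
      refine ContinuousLinearMap.opNorm_le_bound _ (Real.sqrt_nonneg _) fun z => ?_
      have h1 : Ψ z = ∑ n ∈ J, ‖x n‖ * g n (z n) := by
        simp only [Ψ, _root_.sum_apply, _root_.smul_apply, hT,
          smul_eq_mul]
      rw [h1]
      have h2 : |∑ n ∈ J, ‖x n‖ * g n (z n)| ≤ ∑ n ∈ J, ‖x n‖ * ‖z n‖ := by
        refine (Finset.abs_sum_le_sum_abs _ _).trans (Finset.sum_le_sum fun n _ => ?_)
        rw [abs_mul, abs_norm]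
        refine mul_le_mul_of_nonneg_left ?_ (norm_nonneg _)
        have := (g n).le_opNorm (z n)
        have h3 : ‖g n‖ * ‖z n‖ ≤ 1 * ‖z n‖ :=
          mul_le_mul_of_nonneg_right (hg1 n) (norm_nonneg _)
        rw [one_mul] at h3
        exact this.trans h3
      have h3 := Real.sum_mul_le_sqrt_mul_sqrt J (fun n => ‖x n‖) fun n => ‖z n‖
      have h4 : Real.sqrt (∑ n ∈ J, ‖z n‖ ^ 2) ≤ ‖z‖ := by
        rw [show ‖z‖ = Real.sqrt (‖z‖ ^ 2) from (Real.sqrt_sq (norm_nonneg _)).symm]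
        exact Real.sqrt_le_sqrt (sum_norm_sq_le z J)
      calc ‖∑ n ∈ J, ‖x n‖ * g n (z n)‖ = |∑ n ∈ J, ‖x n‖ * g n (z n)| := Real.norm_eq_abs _
        _ ≤ _ := h2
        _ ≤ _ := h3
        _ ≤ Real.sqrt S * ‖z‖ := mul_le_mul_of_nonneg_left h4 (Real.sqrt_nonneg _)
    have h1 : S ≤ ‖Φ‖ * Real.sqrt S :=
      calc S = Φ Ψ := hval.symm
        _ ≤ |Φ Ψ| := le_abs_self _
        _ ≤ ‖Φ‖ * ‖Ψ‖ := Φ.le_opNorm Ψ
        _ ≤ ‖Φ‖ * Real.sqrt S := by
            have h0 : 0 ≤ ‖Φ‖ := by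
              positivity
            exact mul_le_mul_of_nonneg_left hnorm h0
    rcases hS0.eq_or_lt with h0 | hpos
    · rw [← h0]; positivity
    have hs : 0 < Real.sqrt S := Real.sqrt_pos.mpr hpos
    have h2 : Real.sqrt S ≤ ‖Φ‖ := by
      have h21 : Real.sqrt S * Real.sqrt S ≤ ‖Φ‖ * Real.sqrt S := by
        rw [Real.mul_self_sqrt hS0]
        exact h1
      exact le_of_mul_le_mul_right h21 hs
    calc S = (Real.sqrt S) ^ 2 := (Real.sq_sqrt hS0).symm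
      _ ≤ ‖Φ‖ ^ 2 := pow_le_pow_left₀ hs.le h2 2
  have hmem : Memℓp x 2 := by
    refine memℓp_gen' (C := ‖Φ‖ ^ 2) fun J => ?_
    simpa only [lp_two_toReal, Real.rpow_two] using hsum J
  let xx : lp E 2 := ⟨x, hmem⟩
  have hxx : ∀ n, xx n = x n := fun n => rfl
  refine ⟨xx, fun Ψ => ?_⟩
  -- approximate `Ψ`
  have hmain : ∀ ε : ℝ, 0 < ε → |Φ Ψ - Ψ xx| ≤ ε * (‖Φ‖ + ‖xx‖) := by
    intro ε hε
    obtain ⟨J, hJ⟩ := exists_tail Ψ hε
    let ΨJ : StrongDual ℝ (lp E 2) := ∑ n ∈ J, T n (Ψ.comp (iota E n))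
    have h1 : ‖Ψ - ΨJ‖ ≤ ε := by
      refine ContinuousLinearMap.opNorm_le_bound _ hε.le fun z => ?_
      have : (Ψ - ΨJ) z = Ψ z - ∑ n ∈ J, Ψ (iota E n (z n)) := by
        simp only [ΨJ, _root_.sub_apply, _root_.sum_apply, hT,
          ContinuousLinearMap.comp_apply]
      rw [this]
      exact hJ z
    have h2 : Φ ΨJ = ∑ n ∈ J, Ψ (iota E n (xx n)) := by
      simp only [ΨJ, map_sum, hx', ContinuousLinearMap.comp_apply, hxx]
    have h3 : |Φ (Ψ - ΨJ)| ≤ ‖Φ‖ * ε :=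
      (Φ.le_opNorm _).trans (mul_le_mul_of_nonneg_left h1 (norm_nonneg _))
    have h4 := hJ xx
    have h5 : Φ Ψ - Ψ xx = Φ (Ψ - ΨJ) - (Ψ xx - ∑ n ∈ J, Ψ (iota E n (xx n))) := by
      rw [map_sub, h2]
      ring
    rw [h5]
    calc _ ≤ |Φ (Ψ - ΨJ)| + |Ψ xx - ∑ n ∈ J, Ψ (iota E n (xx n))| := abs_sub _ _
      _ ≤ ‖Φ‖ * ε + ε * ‖xx‖ := add_le_add h3 h4
      _ = ε * (‖Φ‖ + ‖xx‖) := by ring
  by_contra hne
  have hpos : 0 < |Φ Ψ - Ψ xx| := abs_pos.mpr (sub_ne_zero.mpr hne)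
  set D := ‖Φ‖ + ‖xx‖ + 1 with hD
  have hD0 : 0 < D := by positivity
  have h6 := hmain (|Φ Ψ - Ψ xx| / (2 * D)) (by positivity)
  have h7 : |Φ Ψ - Ψ xx| / (2 * D) * (‖Φ‖ + ‖xx‖) ≤ |Φ Ψ - Ψ xx| / (2 * D) * D :=
    mul_le_mul_of_nonneg_left (by linarith) (by positivity)
  have h8 : |Φ Ψ - Ψ xx| / (2 * D) * D = |Φ Ψ - Ψ xx| / 2 := by
    field_simp
  linarith

end Outer

/-- Each tree space is reflexive. -/
lemma refl_X (n : ℕ) : Refl (X n) := refl_of_equiv (eX n) (refl_hilbert _)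

/-- The final space. -/
noncomputable abbrev Y := lp (fun n => X n) 2

lemma refl_Y : Refl Y := refl_lp refl_X

end Vale.Agent.P069
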