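import Vale.Agent.P069.Split

/-!
# The Banach spaces: one renormed Hilbert space for each tree, and their `ℓ₂`-sum
-/

open scoped BigOperators ENNReal

namespace Vale.Agent.P069

variable {n : ℕ}

/-- Pairing of a finitely supported functional with a function on the nodes. -/
noncomputable def pair (f : TNode n →₀ ℝ) (x : TNode n → ℝ) : ℝ := f.sum fun v c => c * x v

lemma pair_eq_sum (f : TNode n →₀ ℝ) (x : TNode n → ℝ) {S : Finset (TNode n)}
    (hS : f.support ⊆ S) : pair f x = ∑ v ∈ S, f v * x v :=
  Finsupp.sum_of_support_subset _ hS _ (by simp)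

lemma pair_add_right (f : TNode n →₀ ℝ) (x y : TNode n → ℝ) :
    pair f (x + y) = pair f x + pair f y := by
  rw [pair_eq_sum f _ (subset_refl _), pair_eq_sum f x (subset_refl _),
    pair_eq_sum f y (subset_refl _), ← Finset.sum_add_distrib]
  refine Finset.sum_congr rfl fun v _ => ?_
  simp only [Pi.add_apply]
  ring

lemma pair_smul_right (f : TNode n →₀ ℝ) (c : ℝ) (x : TNode n → ℝ) :
    pair f (c • x) = c * pair f x := by
  rw [pair_eq_sum f _ (subset_refl _), pair_eq_sum f x (subset_refl _), Finset.mul_sum]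
  refine Finset.sum_congr rfl fun v _ => ?_
  simp only [Pi.smul_apply, smul_eq_mul]
  ring

lemma pair_smul_left (f : TNode n →₀ ℝ) (c : ℝ) (x : TNode n → ℝ) :
    pair (c • f) x = c * pair f x := by
  classical
  have hsub : (c • f).support ⊆ f.support := Finsupp.support_smul
  rw [pair_eq_sum _ _ hsub, pair_eq_sum f x (subset_refl _), Finset.mul_sum]
  refine Finset.sum_congr rfl fun v _ => ?_
  simp only [Finsupp.smul_apply, smul_eq_mul]
  ring

lemma pair_sub_right (f : TNode n →₀ ℝ) (x y : TNode n → ℝ) :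
    pair f (x - y) = pair f x - pair f y := by
  rw [pair_eq_sum f _ (subset_refl _), pair_eq_sum f x (subset_refl _),
    pair_eq_sum f y (subset_refl _), ← Finset.sum_sub_distrib]
  refine Finset.sum_congr rfl fun v _ => ?_
  simp only [Pi.sub_apply]
  ring

lemma pair_neg_right (f : TNode n →₀ ℝ) (x : TNode n → ℝ) :
    pair f (-x) = -pair f x := by
  rw [pair_eq_sum f _ (subset_refl _), pair_eq_sum f x (subset_refl _), ← Finset.sum_neg_distrib]
  refine Finset.sum_congr rfl fun v _ => ?_
  simp only [Pi.neg_apply]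
  ring

lemma pair_zero_right (f : TNode n →₀ ℝ) : pair f (0 : TNode n → ℝ) = 0 := by
  rw [pair_eq_sum f _ (subset_refl _)]
  simp

/-- The Hilbert space of a tree. -/
abbrev H (n : ℕ) := lp (fun _ : TNode n => ℝ) 2

lemma two_toReal : (2 : ℝ≥0∞).toReal = 2 := by simp

lemma sum_sq_le_norm (x : H n) (S : Finset (TNode n)) : ∑ v ∈ S, (x v) ^ 2 ≤ ‖x‖ ^ 2 := by
  have h := lp.sum_rpow_le_norm_rpow (p := 2) (by simp) x S
  simp only [two_toReal, Real.rpow_two, Real.norm_eq_abs, sq_abs] at h
  exact h

/-- The unit ball of functionals. -/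
def Ball (n : ℕ) : Set (TNode n →₀ ℝ) := {f | InBall 1 (f : TNode n → ℝ)}

lemma zero_inBall {c : ℝ} (hc : 0 ≤ c) : InBall c (0 : TNode n → ℝ) := by
  constructor
  · intro A _
    simpa using hc
  · intro v a
    simpa [segSum] using hc

lemma zero_mem_ball : (0 : TNode n →₀ ℝ) ∈ Ball n := zero_inBall zero_le_one

lemma pair_sq_le {c : ℝ} {f : TNode n →₀ ℝ} (hf : InBall c f) (x : H n) :
    (pair f x) ^ 2 ≤ (n + 1) * c * ‖x‖ ^ 2 := by
  rw [pair_eq_sum f x (subset_refl _)]
  have h1 := Finset.sum_mul_sq_le_sq_mul_sq f.support f x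
  have h2 := hf.sum_sq_le f.support
  have h3 := sum_sq_le_norm x f.support
  have hc := hf.nonneg
  have h4 : 0 ≤ ∑ v ∈ f.support, (f v) ^ 2 := Finset.sum_nonneg fun _ _ => sq_nonneg _
  have h5 : 0 ≤ ∑ v ∈ f.support, (x v) ^ 2 := Finset.sum_nonneg fun _ _ => sq_nonneg _
  calc _ ≤ (∑ v ∈ f.support, (f v) ^ 2) * ∑ v ∈ f.support, (x v) ^ 2 := h1
    _ ≤ ((n + 1) * c) * ‖x‖ ^ 2 := by
        apply mul_le_mul h2 h3 h5
        positivity

lemma abs_pair_le {f : TNode n →₀ ℝ} (hf : f ∈ Ball n) (x : H n) :
    |pair f x| ≤ Real.sqrt (n + 1) * ‖x‖ := by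
  have h := pair_sq_le hf x
  have h1 : (Real.sqrt (n + 1) * ‖x‖) ^ 2 = (n + 1) * 1 * ‖x‖ ^ 2 := by
    rw [mul_pow, Real.sq_sqrt (by positivity)]
    ring
  rw [← h1] at h
  exact abs_le_of_sq_le_sq h (by positivity)

/-- The norm of the tree `T_n`, as a function on its Hilbert space. -/
noncomputable def pn (x : H n) : ℝ := sSup ((fun f => |pair f x|) '' Ball n)

lemma bdd_pn (x : H n) : BddAbove ((fun f => |pair f x|) '' Ball n) := by
  refine ⟨Real.sqrt (n + 1) * ‖x‖, ?_⟩
  rintro _ ⟨f, hf, rfl⟩
  exact abs_pair_le hf x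

lemma le_pn {f : TNode n →₀ ℝ} (hf : f ∈ Ball n) (x : H n) : |pair f x| ≤ pn x :=
  le_csSup (bdd_pn x) ⟨f, hf, rfl⟩

lemma pn_le {x : H n} {C : ℝ} (h : ∀ f ∈ Ball n, |pair f x| ≤ C) : pn x ≤ C := by
  refine csSup_le ⟨_, 0, zero_mem_ball, rfl⟩ ?_
  rintro _ ⟨f, hf, rfl⟩
  exact h f hf

lemma pn_nonneg (x : H n) : 0 ≤ pn x :=
  le_trans (abs_nonneg _) (le_pn zero_mem_ball x)

lemma pn_le_norm (x : H n) : pn x ≤ Real.sqrt (n + 1) * ‖x‖ :=
  pn_le fun _ hf => abs_pair_le hf x

lemma pn_add (x y : H n) : pn (x + y) ≤ pn x + pn y := by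
  refine pn_le fun f hf => ?_
  have : pair f (x + y : H n) = pair f x + pair f y := pair_add_right f x y
  rw [this]
  exact le_trans (abs_add_le _ _) (add_le_add (le_pn hf x) (le_pn hf y))

lemma pn_neg (x : H n) : pn (-x) = pn x := by
  have key : ∀ z : H n, pn (-z) ≤ pn z := fun z => by
    refine pn_le fun f hf => ?_
    have : pair f (-z : H n) = -pair f z := pair_neg_right f z
    rw [this, abs_neg]
    exact le_pn hf z
  refine le_antisymm (key x) ?_
  have := key (-x)
  rwa [neg_neg] at this

lemma pn_zero : pn (0 : H n) = 0 := by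
  refine le_antisymm (pn_le fun f _ => ?_) (pn_nonneg _)
  have : pair f (0 : H n) = 0 := pair_zero_right f
  rw [this]
  simp

lemma pn_smul_le (c : ℝ) (x : H n) : pn (c • x) ≤ |c| * pn x := by
  refine pn_le fun f hf => ?_
  have : pair f (c • x : H n) = c * pair f x := pair_smul_right f c x
  rw [this, abs_mul]
  exact mul_le_mul_of_nonneg_left (le_pn hf x) (abs_nonneg _)

/-- Scaling a functional into the unit ball. -/
lemma InBall.smul {c : ℝ} {f : TNode n → ℝ} (h : InBall c f) (a : ℝ) :
    InBall (a ^ 2 * c) (fun v => a * f v) := by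
  constructor
  · intro A hA
    have h1 : ∑ v ∈ A, (a * f v) ^ 2 = a ^ 2 * ∑ v ∈ A, (f v) ^ 2 := by
      rw [Finset.mul_sum]
      exact Finset.sum_congr rfl fun v _ => by ring
    rw [h1]
    exact mul_le_mul_of_nonneg_left (h.anti A hA) (sq_nonneg a)
  · intro v b
    have h1 : segSum (fun v => a * f v) v b = a * segSum f v b := by
      unfold segSum
      rw [Finset.mul_sum]
    rw [h1, mul_pow]
    exact mul_le_mul_of_nonneg_left (h.seg v b) (sq_nonneg a)

lemma InBall.mono {c d : ℝ} {f : TNode n → ℝ} (h : InBall c f) (hcd : c ≤ d) : InBall d f :=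
  ⟨fun A hA => le_trans (h.anti A hA) hcd, fun v a => le_trans (h.seg v a) hcd⟩

/-- A functional in the ball of size `c` has norm at most `√c`. -/
lemma pair_le_of_inBall {c : ℝ} {f : TNode n →₀ ℝ} (hf : InBall c f) (x : H n) :
    |pair f x| ≤ Real.sqrt c * pn x := by
  have hc := hf.nonneg
  rcases hc.eq_or_lt with hc0 | hc0
  · have hf0 : f = 0 := by
      ext v
      have := hf.sq_le v
      rw [← hc0] at this
      have h2 : (f v) ^ 2 = 0 := le_antisymm this (sq_nonneg _)
      simpa using h2
    rw [hf0]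
    have : pair (0 : TNode n →₀ ℝ) x = 0 := by simp [pair]
    rw [this]
    simp [mul_nonneg (Real.sqrt_nonneg _) (pn_nonneg x)]
  · have hs : 0 < Real.sqrt c := Real.sqrt_pos.mpr hc0
    have hmem : ((Real.sqrt c)⁻¹ • f) ∈ Ball n := by
      have h1 := hf.smul (Real.sqrt c)⁻¹
      have h2 : ((Real.sqrt c)⁻¹) ^ 2 * c = 1 := by
        rw [inv_pow, Real.sq_sqrt hc]
        field_simp
      rw [h2] at h1
      have h3 : ((fun v => (Real.sqrt c)⁻¹ * (f : TNode n → ℝ) v)) =
          ((Real.sqrt c)⁻¹ • f : TNode n →₀ ℝ) := by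
        funext v
        simp
      rw [h3] at h1
      exact h1
    have h4 := le_pn hmem x
    rw [pair_smul_left, abs_mul, abs_of_pos (inv_pos.mpr hs)] at h4
    have h5 : |pair f x| = Real.sqrt c * ((Real.sqrt c)⁻¹ * |pair f x|) := by
      field_simp
    rw [h5]
    exact mul_le_mul_of_nonneg_left h4 hs.le

/-- The functional `x / r` on a finite antichain. -/
lemma anti_sum_sq_le (x : H n) {A : Finset (TNode n)} (hA : IsAnti A) :
    ∑ v ∈ A, (x v) ^ 2 ≤ (pn x) ^ 2 := by
  classical
  set s := ∑ v ∈ A, (x v) ^ 2 with hs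
  have hs0 : 0 ≤ s := Finset.sum_nonneg fun _ _ => sq_nonneg _
  rcases hs0.eq_or_lt with h0 | hpos
  · rw [← h0]; positivity
  set r := Real.sqrt s with hr
  have hr0 : 0 < r := Real.sqrt_pos.mpr hpos
  have hrr : r ^ 2 = s := Real.sq_sqrt hs0
  let f : TNode n →₀ ℝ := Finsupp.onFinset A (fun v => if v ∈ A then x v / r else 0)
    (fun v hv => by
      by_contra hcon
      exact hv (if_neg hcon))
  have hfv : ∀ v, f v = if v ∈ A then x v / r else 0 := fun v => rfl
  have hsumA : ∑ v ∈ A, (f v) ^ 2 = 1 := by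
    have : ∀ v ∈ A, (f v) ^ 2 = (x v) ^ 2 / r ^ 2 := by
      intro v hv
      rw [hfv, if_pos hv, div_pow]
    rw [Finset.sum_congr rfl this, ← Finset.sum_div, ← hs, hrr]
    exact div_self hpos.ne'
  have hmem : f ∈ Ball n := by
    constructor
    · intro B _
      have h1 : ∑ v ∈ B, (f v) ^ 2 = ∑ v ∈ B.filter (· ∈ A), (f v) ^ 2 := by
        symm
        apply Finset.sum_subset (Finset.filter_subset _ _)
        intro v hv hv'
        have : v ∉ A := fun h => hv' (Finset.mem_filter.mpr ⟨hv, h⟩)
        rw [hfv, if_neg this]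
        simp
      rw [h1, ← hsumA]
      refine Finset.sum_le_sum_of_subset_of_nonneg ?_ fun _ _ _ => sq_nonneg _
      intro v hv
      exact (Finset.mem_filter.mp hv).2
    · intro v a
      by_cases hex : ∃ i ∈ Finset.Ico a (depth v + 1), anc v i ∈ A
      · obtain ⟨i, hi, hiA⟩ := hex
        have hsum : segSum (f : TNode n → ℝ) v a = f (anc v i) := by
          unfold segSum
          refine Finset.sum_eq_single i ?_ (fun h => absurd hi h)
          intro j hj hji
          by_cases hjA : anc v j ∈ A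
          · exfalso
            have hid : i ≤ depth v := by
              have := (Finset.mem_Ico.mp hi).2
              omega
            have hjd : j ≤ depth v := by
              have := (Finset.mem_Ico.mp hj).2
              omega
            rcases lt_or_gt_of_ne hji with hlt | hgt
            · have h1 : anc (anc v i) j = anc v j := by
                rw [anc_anc, min_eq_left hlt.le]
              have h2 := hA _ hjA _ hiA j h1
              have h3 := congrArg depth h2
              rw [depth_anc_of_le v hid, depth_anc_of_le v hjd] at h3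
              omega
            · have h1 : anc (anc v j) i = anc v i := by
                rw [anc_anc, min_eq_left hgt.le]
              have h2 := hA _ hiA _ hjA i h1
              have h3 := congrArg depth h2
              rw [depth_anc_of_le v hid, depth_anc_of_le v hjd] at h3
              omega
          · rw [hfv, if_neg hjA]
        rw [hsum, ← hsumA]
        exact Finset.single_le_sum (f := fun v => (f v) ^ 2) (fun _ _ => sq_nonneg _) hiA
      · push Not at hex
        have hsum : segSum (f : TNode n → ℝ) v a = 0 := by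
          unfold segSum
          refine Finset.sum_eq_zero fun i hi => ?_
          rw [hfv, if_neg (hex i hi)]
        rw [hsum]
        norm_num
  have hpair : pair f x = r := by
    have hsub : f.support ⊆ A := Finsupp.support_onFinset_subset
    rw [pair_eq_sum f x hsub]
    have : ∀ v ∈ A, f v * x v = (x v) ^ 2 / r := by
      intro v hv
      rw [hfv, if_pos hv]
      ring
    rw [Finset.sum_congr rfl this, ← Finset.sum_div, ← hs, ← hrr]
    field_simp
  have h1 := le_pn hmem x
  rw [hpair, abs_of_pos hr0] at h1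
  calc s = r ^ 2 := hrr.symm
    _ ≤ (pn x) ^ 2 := pow_le_pow_left₀ hr0.le h1 2

lemma sum_sq_le_pn (x : H n) (S : Finset (TNode n)) :
    ∑ v ∈ S, (x v) ^ 2 ≤ (n + 1) * (pn x) ^ 2 := by
  have hmaps : ∀ v ∈ S, depth v ∈ Finset.range (n + 1) := fun v _ =>
    Finset.mem_range.mpr (Nat.lt_succ_of_le (depth_le v))
  rw [← Finset.sum_fiberwise_of_maps_to hmaps]
  calc ∑ d ∈ Finset.range (n + 1), ∑ v ∈ S with depth v = d, (x v) ^ 2
      ≤ ∑ _d ∈ Finset.range (n + 1), (pn x) ^ 2 :=
        Finset.sum_le_sum fun d _ => anti_sum_sq_le x (isAnti_level S d)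
    _ = (n + 1) * (pn x) ^ 2 := by simp

lemma norm_le_pn (x : H n) : ‖x‖ ≤ Real.sqrt (n + 1) * pn x := by
  refine lp.norm_le_of_forall_sum_le (p := 2) (by simp)
    (mul_nonneg (Real.sqrt_nonneg _) (pn_nonneg x)) fun S => ?_
  have h := sum_sq_le_pn x S
  simp only [two_toReal, Real.rpow_two, Real.norm_eq_abs, sq_abs]
  rw [mul_pow, Real.sq_sqrt (by positivity)]
  exact h

lemma pn_eq_zero {x : H n} (h : pn x = 0) : x = 0 := by
  have := norm_le_pn x
  rw [h, mul_zero] at this
  exact norm_le_zero_iff.mp this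

/-- The space of the tree `T_n`: its Hilbert space with the new norm. -/
def X (n : ℕ) : Type := H n

noncomputable instance : AddCommGroup (X n) := inferInstanceAs (AddCommGroup (H n))
noncomputable instance : Module ℝ (X n) := inferInstanceAs (Module ℝ (H n))

/-- The identity from `X n` to its underlying Hilbert space. -/
noncomputable def toH : X n ≃ₗ[ℝ] H n := LinearEquiv.refl ℝ (H n)

/-- The norm of `X n`, as a group norm. -/
noncomputable def normX (n : ℕ) : AddGroupNorm (X n) where
  toFun x := pn (toH x)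
  map_zero' := by rw [map_zero]; exact pn_zero
  add_le' x y := by rw [map_add]; exact pn_add _ _
  neg' x := by rw [map_neg]; exact pn_neg _
  eq_zero_of_map_eq_zero' x h := by
    have := pn_eq_zero h
    exact toH.map_eq_zero_iff.mp this

noncomputable instance : NormedAddCommGroup (X n) := (normX n).toNormedAddCommGroup

lemma norm_X (x : X n) : ‖x‖ = pn (toH x) := rfl

noncomputable instance : NormedSpace ℝ (X n) where
  norm_smul_le c x := by
    rw [norm_X, norm_X, map_smul]
    exact pn_smul_le c _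

/-- The new norm is equivalent to the Hilbert norm on each tree. -/
noncomputable def eX (n : ℕ) : X n ≃L[ℝ] H n :=
  toH.toContinuousLinearEquivOfBounds (Real.sqrt (n + 1)) (Real.sqrt (n + 1))
    (fun x => by
      rw [norm_X]
      exact norm_le_pn _)
    (fun x => by
      rw [norm_X, LinearEquiv.apply_symm_apply]
      exact pn_le_norm _)

instance : CompleteSpace (X n) := by
  have hb : ∀ x : X n, ‖x‖ ≤ (⟨Real.sqrt (n + 1), Real.sqrt_nonneg _⟩ : NNReal) *
      ‖(eX n : X n →L[ℝ] H n) x‖ := fun x => by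
    rw [norm_X]
    exact pn_le_norm _
  have h := ContinuousLinearMap.isUniformEmbedding_of_bound (eX n : X n →L[ℝ] H n) hb
  exact (h.isUniformInducing.completeSpace_congr (eX n).surjective).mpr inferInstance

end Vale.Agent.P069
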