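import Vale.Agent.P069.Tree

/-!
# The sign-splitting lemma: the heart of the asymptotic midpoint convexity
-/

open scoped BigOperators

namespace Vale.Agent.P069

variable {n : ℕ}

open Classical in
/-- The restriction of `g` to the complement of `G`. -/
noncomputable def offG (G : Finset (TNode n)) (g : TNode n → ℝ) (v : TNode n) : ℝ :=
  if v ∈ G then 0 else g v

/-- `G` is closed under taking ancestors. -/
def IsDown (G : Finset (TNode n)) : Prop := ∀ v ∈ G, ∀ i, anc v i ∈ G

/-- The sum of `h` on the first `k` nodes of the chain of `v`. -/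
def prefSum (h : TNode n → ℝ) (v : TNode n) (k : ℕ) : ℝ :=
  ∑ j ∈ Finset.range k, h (anc v j)

/-- Increment of the positive part of the running sum. -/
noncomputable def upPart (h : TNode n → ℝ) (v : TNode n) : ℝ :=
  max (prefSum h v (depth v + 1)) 0 - max (prefSum h v (depth v)) 0

/-- Increment of the negative part of the running sum. -/
noncomputable def downPart (h : TNode n → ℝ) (v : TNode n) : ℝ :=
  min (prefSum h v (depth v + 1)) 0 - min (prefSum h v (depth v)) 0

lemma depth_anc_of_le (v : TNode n) {i : ℕ} (h : i ≤ depth v) : depth (anc v i) = i := by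
  rw [depth_anc, min_eq_left h]

lemma prefSum_anc (h : TNode n → ℝ) (v : TNode n) {i k : ℕ} (hk : k ≤ i + 1) :
    prefSum h (anc v i) k = prefSum h v k := by
  unfold prefSum
  refine Finset.sum_congr rfl fun j hj => ?_
  rw [anc_anc, min_eq_left]
  have := Finset.mem_range.mp hj
  omega

lemma upPart_anc (h : TNode n → ℝ) (v : TNode n) {i : ℕ} (hi : i ≤ depth v) :
    upPart h (anc v i) = max (prefSum h v (i + 1)) 0 - max (prefSum h v i) 0 := by
  unfold upPart
  rw [depth_anc_of_le v hi, prefSum_anc h v le_rfl, prefSum_anc h v (Nat.le_succ i)]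

lemma downPart_anc (h : TNode n → ℝ) (v : TNode n) {i : ℕ} (hi : i ≤ depth v) :
    downPart h (anc v i) = min (prefSum h v (i + 1)) 0 - min (prefSum h v i) 0 := by
  unfold downPart
  rw [depth_anc_of_le v hi, prefSum_anc h v le_rfl, prefSum_anc h v (Nat.le_succ i)]

lemma telescope (P : ℕ → ℝ) {a e : ℕ} (h : a ≤ e) :
    ∑ i ∈ Finset.Ico a e, (P (i + 1) - P i) = P e - P a := by
  rw [Finset.sum_Ico_eq_sub _ h, Finset.sum_range_sub, Finset.sum_range_sub]
  ring

lemma segSum_eq_prefSum (h : TNode n → ℝ) (v : TNode n) {a : ℕ} (ha : a ≤ depth v + 1) :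
    segSum h v a = prefSum h v (depth v + 1) - prefSum h v a := by
  unfold segSum prefSum
  rw [Finset.sum_Ico_eq_sub _ ha]

lemma segSum_of_gt (h : TNode n → ℝ) (v : TNode n) {a : ℕ} (ha : depth v + 1 ≤ a) :
    segSum h v a = 0 := by
  unfold segSum
  rw [Finset.Ico_eq_empty_of_le ha]
  simp

lemma segSum_up (h : TNode n → ℝ) (v : TNode n) {a : ℕ} (ha : a ≤ depth v + 1) :
    segSum (upPart h) v a =
      max (prefSum h v (depth v + 1)) 0 - max (prefSum h v a) 0 := by
  unfold segSum
  rw [← telescope (fun k => max (prefSum h v k) 0) ha]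
  refine Finset.sum_congr rfl fun i hi => ?_
  have := (Finset.mem_Ico.mp hi).2
  exact upPart_anc h v (by omega)

lemma segSum_down (h : TNode n → ℝ) (v : TNode n) {a : ℕ} (ha : a ≤ depth v + 1) :
    segSum (downPart h) v a =
      min (prefSum h v (depth v + 1)) 0 - min (prefSum h v a) 0 := by
  unfold segSum
  rw [← telescope (fun k => min (prefSum h v k) 0) ha]
  refine Finset.sum_congr rfl fun i hi => ?_
  have := (Finset.mem_Ico.mp hi).2
  exact downPart_anc h v (by omega)

lemma abs_min_zero_sub_le (a b : ℝ) : |min a 0 - min b 0| ≤ |a - b| := by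
  have := abs_min_sub_min_le_max a 0 b 0
  simpa using this

lemma abs_max_zero_sub_le (a b : ℝ) : |max a 0 - max b 0| ≤ |a - b| :=
  abs_max_sub_max_le_abs a b 0

lemma abs_segSum_up_le (h : TNode n → ℝ) (v : TNode n) (a : ℕ) :
    |segSum (upPart h) v a| ≤ |segSum h v a| := by
  rcases le_total a (depth v + 1) with ha | ha
  · rw [segSum_up h v ha, segSum_eq_prefSum h v ha]
    exact abs_max_zero_sub_le _ _
  · rw [segSum_of_gt _ v ha, segSum_of_gt _ v ha]

lemma abs_segSum_down_le (h : TNode n → ℝ) (v : TNode n) (a : ℕ) :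
    |segSum (downPart h) v a| ≤ |segSum h v a| := by
  rcases le_total a (depth v + 1) with ha | ha
  · rw [segSum_down h v ha, segSum_eq_prefSum h v ha]
    exact abs_min_zero_sub_le _ _
  · rw [segSum_of_gt _ v ha, segSum_of_gt _ v ha]

lemma up_add_down (h : TNode n → ℝ) (v : TNode n) : upPart h v + downPart h v = h v := by
  unfold upPart downPart
  have h1 : prefSum h v (depth v + 1) = prefSum h v (depth v) + h v := by
    unfold prefSum
    rw [Finset.sum_range_succ, anc_depth]
  have h2 := max_add_min (prefSum h v (depth v + 1)) 0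
  have h3 := max_add_min (prefSum h v (depth v)) 0
  linarith

lemma prefSum_succ_self (h : TNode n → ℝ) (v : TNode n) :
    prefSum h v (depth v + 1) - prefSum h v (depth v) = h v := by
  unfold prefSum
  rw [Finset.sum_range_succ, anc_depth]
  ring

lemma abs_up_le (h : TNode n → ℝ) (v : TNode n) : |upPart h v| ≤ |h v| := by
  unfold upPart
  rw [← prefSum_succ_self h v]
  exact abs_max_zero_sub_le _ _

lemma abs_down_le (h : TNode n → ℝ) (v : TNode n) : |downPart h v| ≤ |h v| := by
  unfold downPart
  rw [← prefSum_succ_self h v]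
  exact abs_min_zero_sub_le _ _

section Main

variable (G : Finset (TNode n)) (hG : IsDown G)
include hG

lemma anc_mem_of_mem {v : TNode n} {i j : ℕ} (hij : j ≤ i) (h : anc v i ∈ G) : anc v j ∈ G := by
  have := hG _ h j
  rwa [anc_anc, min_eq_left hij] at this

lemma prefSum_offG_eq_zero {g : TNode n → ℝ} {v : TNode n} {k : ℕ}
    (h : ∀ j < k, anc v j ∈ G) : prefSum (offG G g) v k = 0 := by
  unfold prefSum
  refine Finset.sum_eq_zero fun j hj => ?_
  unfold offG
  rw [if_pos (h j (Finset.mem_range.mp hj))]

lemma up_of_mem {g : TNode n → ℝ} {v : TNode n} (hv : v ∈ G) : upPart (offG G g) v = 0 := by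
  have hall : ∀ j, anc v j ∈ G := hG v hv
  unfold upPart
  rw [prefSum_offG_eq_zero G hG (fun j _ => hall j), prefSum_offG_eq_zero G hG (fun j _ => hall j)]
  simp

lemma down_of_mem {g : TNode n → ℝ} {v : TNode n} (hv : v ∈ G) : downPart (offG G g) v = 0 := by
  have hall : ∀ j, anc v j ∈ G := hG v hv
  unfold downPart
  rw [prefSum_offG_eq_zero G hG (fun j _ => hall j), prefSum_offG_eq_zero G hG (fun j _ => hall j)]
  simp

/-- Outside `G`, where `f` vanishes, the suffix sums of `f` do not change along the chain. -/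
lemma seg_eq_of_not_mem {f : TNode n → ℝ} (hfG : ∀ v, v ∉ G → f v = 0) {v : TNode n} {i : ℕ}
    (hi : anc v i ∉ G) (a : ℕ) : segSum f (anc v i) a = segSum f v a := by
  rcases le_total (depth v) i with h | h
  · rw [anc_of_le v h]
  · unfold segSum
    rw [depth_anc_of_le v h]
    have h1 : ∑ j ∈ Finset.Ico a (i + 1), f (anc (anc v i) j) =
        ∑ j ∈ Finset.Ico a (i + 1), f (anc v j) := by
      refine Finset.sum_congr rfl fun j hj => ?_
      rw [anc_anc, min_eq_left]
      have := (Finset.mem_Ico.mp hj).2
      omega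
    rw [h1]
    refine Finset.sum_subset ?_ ?_
    · intro j hj
      simp only [Finset.mem_Ico] at hj ⊢
      omega
    · intro j hj hj'
      simp only [Finset.mem_Ico] at hj hj'
      apply hfG
      intro hmem
      exact hi (anc_mem_of_mem G hG (by omega) hmem)

end Main

/-- Every positive suffix sum at `v` is dominated by a negative suffix sum of at least the same
magnitude. -/
def DirPlus (f : TNode n → ℝ) (v : TNode n) : Prop :=
  ∀ a, 0 < segSum f v a → ∃ b, segSum f v b ≤ -segSum f v a

lemma not_dirPlus {f : TNode n → ℝ} {v : TNode n} (h : ¬ DirPlus f v) (a : ℕ)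
    (ha : segSum f v a < 0) : ∃ b, -segSum f v a ≤ segSum f v b := by
  unfold DirPlus at h
  push Not at h
  obtain ⟨a0, h0, h1⟩ := h
  refine ⟨a0, ?_⟩
  have := h1 a
  linarith

lemma four_sq_of_dirPlus {c : ℝ} {f : TNode n → ℝ} (hf : InBall c f) {v : TNode n}
    (h : DirPlus f v) {a : ℕ} (ha : 0 < segSum f v a) : 4 * (segSum f v a) ^ 2 ≤ c := by
  obtain ⟨b, hb⟩ := h a ha
  have h1 := hf.diff v a b
  nlinarith

lemma four_sq_of_not_dirPlus {c : ℝ} {f : TNode n → ℝ} (hf : InBall c f) {v : TNode n}
    (h : ¬ DirPlus f v) {a : ℕ} (ha : segSum f v a < 0) : 4 * (segSum f v a) ^ 2 ≤ c := by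
  obtain ⟨b, hb⟩ := not_dirPlus h a ha
  have h1 := hf.diff v a b
  nlinarith

section Core

variable {G : Finset (TNode n)} {f g : TNode n → ℝ} {cf cg : ℝ}

lemma segSum_offG_sq (hG : IsDown G) (hg : InBall cg g) (v : TNode n) (a : ℕ) :
    (segSum (offG G g) v a) ^ 2 ≤ cg := by
  classical
  by_cases hv : v ∈ G
  · have : segSum (offG G g) v a = 0 := by
      unfold segSum
      refine Finset.sum_eq_zero fun i _ => ?_
      unfold offG
      rw [if_pos (hG v hv i)]
    rw [this]
    simpa using hg.nonneg
  · have hex : ∃ i, anc v i ∉ G := ⟨depth v, by rwa [anc_depth]⟩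
    set k := Nat.find hex with hk
    have hk1 : anc v k ∉ G := Nat.find_spec hex
    have hk2 : ∀ i < k, anc v i ∈ G := fun i hi => by
      have := Nat.find_min hex hi
      simpa using this
    have : segSum (offG G g) v a = segSum g v (max a k) := by
      unfold segSum
      symm
      have hsub : Finset.Ico (max a k) (depth v + 1) ⊆ Finset.Ico a (depth v + 1) := by
        intro i hi
        simp only [Finset.mem_Ico] at hi ⊢
        exact ⟨le_trans (le_max_left _ _) hi.1, hi.2⟩
      rw [← Finset.sum_subset hsub]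
      · refine Finset.sum_congr rfl fun i hi => ?_
        simp only [Finset.mem_Ico] at hi
        unfold offG
        rw [if_neg]
        intro hmem
        exact hk1 (anc_mem_of_mem G hG (le_trans (le_max_right a k) hi.1) hmem)
      · intro i hi hi'
        simp only [Finset.mem_Ico] at hi hi'
        unfold offG
        rw [if_pos]
        apply hk2
        by_contra hcon
        push Not at hcon
        exact absurd ⟨max_le hi.1 hcon, hi.2⟩ hi'
    rw [this]
    exact hg.seg v _

/-- The generic estimate. -/
lemma core_inBall (hG : IsDown G) (hf : InBall cf f) (hg : InBall cg g)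
    (hfG : ∀ v, v ∉ G → f v = 0) (h : TNode n → ℝ)
    (h0 : ∀ v ∈ G, h v = 0) (h1 : ∀ v, |h v| ≤ |offG G g v|)
    (h2 : ∀ v a, |segSum h v a| ≤ |segSum (offG G g) v a|)
    (h3 : ∀ v a, prefSum (offG G g) v a = 0 →
      (DirPlus f v → 0 ≤ segSum h v a) ∧ (¬ DirPlus f v → segSum h v a ≤ 0))
    {α β : ℝ} (hα : 0 ≤ α) (hβ : 0 ≤ β) :
    InBall (α ^ 2 * cf + 4 / 3 * β ^ 2 * cg) (fun v => α * f v + β * h v) := by
  classical
  have hcf := hf.nonneg
  have hcg := hg.nonneg
  constructor
  · intro B hB
    have hpt : ∀ v ∈ B, (α * f v + β * h v) ^ 2 ≤ α ^ 2 * (f v) ^ 2 + β ^ 2 * (g v) ^ 2 := by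
      intro v _
      by_cases hv : v ∈ G
      · rw [h0 v hv]
        have : 0 ≤ β ^ 2 * (g v) ^ 2 := by positivity
        nlinarith
      · rw [hfG v hv]
        have h4 := h1 v
        have h5 : offG G g v = g v := by unfold offG; rw [if_neg hv]
        rw [h5] at h4
        have h6 : (h v) ^ 2 ≤ (g v) ^ 2 := by
          rw [← sq_abs (h v), ← sq_abs (g v)]
          exact pow_le_pow_left₀ (abs_nonneg _) h4 2
        have h7 : β ^ 2 * (h v) ^ 2 ≤ β ^ 2 * (g v) ^ 2 :=
          mul_le_mul_of_nonneg_left h6 (by positivity)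
        nlinarith
    calc ∑ v ∈ B, (α * f v + β * h v) ^ 2
        ≤ ∑ v ∈ B, (α ^ 2 * (f v) ^ 2 + β ^ 2 * (g v) ^ 2) := Finset.sum_le_sum hpt
      _ = α ^ 2 * ∑ v ∈ B, (f v) ^ 2 + β ^ 2 * ∑ v ∈ B, (g v) ^ 2 := by
          rw [Finset.sum_add_distrib, Finset.mul_sum, Finset.mul_sum]
      _ ≤ α ^ 2 * cf + β ^ 2 * cg := by
          have h8 := hf.anti B hB
          have h9 := hg.anti B hB
          have h10 : α ^ 2 * ∑ v ∈ B, (f v) ^ 2 ≤ α ^ 2 * cf :=
            mul_le_mul_of_nonneg_left h8 (by positivity)
          have h11 : β ^ 2 * ∑ v ∈ B, (g v) ^ 2 ≤ β ^ 2 * cg :=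
            mul_le_mul_of_nonneg_left h9 (by positivity)
          linarith
      _ ≤ α ^ 2 * cf + 4 / 3 * β ^ 2 * cg := by
          have : 0 ≤ β ^ 2 * cg := by positivity
          linarith
  · intro v a
    have hsplit : segSum (fun v => α * f v + β * h v) v a =
        α * segSum f v a + β * segSum h v a := by
      unfold segSum
      rw [Finset.sum_add_distrib, Finset.mul_sum, Finset.mul_sum]
    rw [hsplit]
    set A := segSum f v a with hA
    set T := segSum h v a with hT
    have hA2 : A ^ 2 ≤ cf := hf.seg v a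
    have hT2 : T ^ 2 ≤ cg := by
      have h4 := h2 v a
      have h5 := segSum_offG_sq hG hg v a
      have h6 : T ^ 2 ≤ (segSum (offG G g) v a) ^ 2 := by
        rw [← sq_abs T, ← sq_abs (segSum (offG G g) v a)]
        exact pow_le_pow_left₀ (abs_nonneg _) h4 2
      linarith
    have hαA : α ^ 2 * A ^ 2 ≤ α ^ 2 * cf := mul_le_mul_of_nonneg_left hA2 (by positivity)
    have hβT : β ^ 2 * T ^ 2 ≤ β ^ 2 * cg := mul_le_mul_of_nonneg_left hT2 (by positivity)
    have hβc : 0 ≤ β ^ 2 * cg := by positivity
    have hαc : 0 ≤ α ^ 2 * cf := by positivity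
    by_cases hP : prefSum (offG G g) v a = 0
    · obtain ⟨h31, h32⟩ := h3 v a hP
      by_cases hd : DirPlus f v
      · have hT0 : 0 ≤ T := h31 hd
        rcases le_or_gt A 0 with hA0 | hA0
        · have h4 : α * A * (β * T) ≤ 0 :=
            mul_nonpos_of_nonpos_of_nonneg (mul_nonpos_of_nonneg_of_nonpos hα hA0)
              (mul_nonneg hβ hT0)
          nlinarith
        · have h4 := four_sq_of_dirPlus hf hd hA0
          have h5 : α ^ 2 * (4 * A ^ 2) ≤ α ^ 2 * cf :=
            mul_le_mul_of_nonneg_left h4 (by positivity)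
          nlinarith [sq_nonneg (3 * (α * A) - β * T)]
      · have hT0 : T ≤ 0 := h32 hd
        rcases le_or_gt 0 A with hA0 | hA0
        · have h4 : α * A * (β * T) ≤ 0 :=
            mul_nonpos_of_nonneg_of_nonpos (mul_nonneg hα hA0) (mul_nonpos_of_nonneg_of_nonpos hβ hT0)
          nlinarith
        · have h4 := four_sq_of_not_dirPlus hf hd hA0
          have h5 : α ^ 2 * (4 * A ^ 2) ≤ α ^ 2 * cf :=
            mul_le_mul_of_nonneg_left h4 (by positivity)
          nlinarith [sq_nonneg (3 * (α * A) - β * T)]
    · -- some ancestor above the segment lies outside `G`, so `f` vanishes on the segment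
      have hex : ∃ j < a, anc v j ∉ G := by
        by_contra hcon
        push Not at hcon
        exact hP (prefSum_offG_eq_zero G hG hcon)
      obtain ⟨j, hj, hj'⟩ := hex
      have hA0 : A = 0 := by
        rw [hA]
        unfold segSum
        refine Finset.sum_eq_zero fun i hi => ?_
        apply hfG
        intro hmem
        have := (Finset.mem_Ico.mp hi).1
        exact hj' (anc_mem_of_mem G hG (by omega) hmem)
      rw [hA0]
      nlinarith

end Core

/-- The sign-splitting lemma. -/
theorem split {G : Finset (TNode n)} {f g : TNode n → ℝ} {cf cg : ℝ} (hG : IsDown G)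
    (hf : InBall cf f) (hg : InBall cg g) (hfG : ∀ v, v ∉ G → f v = 0) :
    ∃ gp gm : TNode n → ℝ,
      (∀ v, g v = 0 → gp v = 0 ∧ gm v = 0) ∧
      (∀ v ∈ G, gp v = 0 ∧ gm v = 0) ∧
      (∀ v, gp v + gm v = offG G g v) ∧
      ∀ α β : ℝ, 0 ≤ α → 0 ≤ β →
        InBall (α ^ 2 * cf + 4 / 3 * β ^ 2 * cg) (fun v => α * f v + β * gp v) ∧
        InBall (α ^ 2 * cf + 4 / 3 * β ^ 2 * cg) (fun v => α * f v - β * gm v) := by
  classical
  set g' : TNode n → ℝ := offG G g with hg'
  let gp : TNode n → ℝ := fun v => if DirPlus f v then upPart g' v else downPart g' v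
  let gm : TNode n → ℝ := fun v => if DirPlus f v then downPart g' v else upPart g' v
  -- along a chain the direction is frozen
  have hdir : ∀ (v : TNode n) (i : ℕ), anc v i ∉ G → (DirPlus f (anc v i) ↔ DirPlus f v) := by
    intro v i hi
    unfold DirPlus
    simp only [seg_eq_of_not_mem G hG hfG hi]
  have hup0 : ∀ v ∈ G, upPart g' v = 0 := fun v hv => up_of_mem G hG hv
  have hdown0 : ∀ v ∈ G, downPart g' v = 0 := fun v hv => down_of_mem G hG hv
  have hgpPath : ∀ (v : TNode n) (a : ℕ), segSum gp v a =
      if DirPlus f v then segSum (upPart g') v a else segSum (downPart g') v a := by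
    intro v a
    split_ifs with hd
    · unfold segSum
      refine Finset.sum_congr rfl fun i _ => ?_
      by_cases hi : anc v i ∈ G
      · simp only [gp, hup0 _ hi, hdown0 _ hi, ite_self]
      · have := (hdir v i hi).mpr hd
        simp only [gp, if_pos this]
    · unfold segSum
      refine Finset.sum_congr rfl fun i _ => ?_
      by_cases hi : anc v i ∈ G
      · simp only [gp, hup0 _ hi, hdown0 _ hi, ite_self]
      · have : ¬ DirPlus f (anc v i) := fun h => hd ((hdir v i hi).mp h)
        simp only [gp, if_neg this]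
  have hgmPath : ∀ (v : TNode n) (a : ℕ), segSum gm v a =
      if DirPlus f v then segSum (downPart g') v a else segSum (upPart g') v a := by
    intro v a
    split_ifs with hd
    · unfold segSum
      refine Finset.sum_congr rfl fun i _ => ?_
      by_cases hi : anc v i ∈ G
      · simp only [gm, hup0 _ hi, hdown0 _ hi, ite_self]
      · have := (hdir v i hi).mpr hd
        simp only [gm, if_pos this]
    · unfold segSum
      refine Finset.sum_congr rfl fun i _ => ?_
      by_cases hi : anc v i ∈ G
      · simp only [gm, hup0 _ hi, hdown0 _ hi, ite_self]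
      · have : ¬ DirPlus f (anc v i) := fun h => hd ((hdir v i hi).mp h)
        simp only [gm, if_neg this]
  -- signs of the segment sums starting where the running sum vanishes
  have hupSign : ∀ (v : TNode n) (a : ℕ), prefSum g' v a = 0 → 0 ≤ segSum (upPart g') v a := by
    intro v a hP
    rcases le_total a (depth v + 1) with ha | ha
    · rw [segSum_up g' v ha, hP]
      simp
    · rw [segSum_of_gt _ v ha]
  have hdownSign : ∀ (v : TNode n) (a : ℕ), prefSum g' v a = 0 → segSum (downPart g') v a ≤ 0 := by
    intro v a hP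
    rcases le_total a (depth v + 1) with ha | ha
    · rw [segSum_down g' v ha, hP]
      simp
    · rw [segSum_of_gt _ v ha]
  have habsgp : ∀ v, |gp v| ≤ |g' v| := by
    intro v
    by_cases hd : DirPlus f v
    · simp only [gp, if_pos hd]; exact abs_up_le g' v
    · simp only [gp, if_neg hd]; exact abs_down_le g' v
  have habsgm : ∀ v, |gm v| ≤ |g' v| := by
    intro v
    by_cases hd : DirPlus f v
    · simp only [gm, if_pos hd]; exact abs_down_le g' v
    · simp only [gm, if_neg hd]; exact abs_up_le g' v
  have hg0 : ∀ v, g v = 0 → g' v = 0 := by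
    intro v hv
    simp only [hg', offG]
    split_ifs
    · rfl
    · exact hv
  refine ⟨gp, gm, ?_, ?_, ?_, ?_⟩
  · intro v hv
    have h1 := habsgp v
    have h2 := habsgm v
    rw [hg0 v hv, abs_zero] at h1 h2
    exact ⟨abs_nonpos_iff.mp h1, abs_nonpos_iff.mp h2⟩
  · intro v hv
    simp only [gp, gm, hup0 v hv, hdown0 v hv, ite_self, and_self]
  · intro v
    by_cases hd : DirPlus f v
    · simp only [gp, gm, if_pos hd]; exact up_add_down g' v
    · simp only [gp, gm, if_neg hd]; rw [add_comm]; exact up_add_down g' v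
  · intro α β hα hβ
    constructor
    · refine core_inBall hG hf hg hfG gp ?_ habsgp ?_ ?_ hα hβ
      · intro v hv
        simp only [gp, hup0 v hv, hdown0 v hv, ite_self]
      · intro v a
        rw [hgpPath]
        split_ifs
        · exact abs_segSum_up_le g' v a
        · exact abs_segSum_down_le g' v a
      · intro v a hP
        constructor
        · intro hd
          rw [hgpPath, if_pos hd]
          exact hupSign v a hP
        · intro hd
          rw [hgpPath, if_neg hd]
          exact hdownSign v a hP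
    · have hneg : (fun v => α * f v - β * gm v) = fun v => α * f v + β * (fun v => -gm v) v := by
        funext v; ring
      rw [hneg]
      have hsegneg : ∀ (v : TNode n) (a : ℕ),
          segSum (fun v => -gm v) v a = -segSum gm v a := by
        intro v a
        unfold segSum
        rw [Finset.sum_neg_distrib]
      refine core_inBall hG hf hg hfG (fun v => -gm v) ?_ ?_ ?_ ?_ hα hβ
      · intro v hv
        simp only [gm, hup0 v hv, hdown0 v hv, ite_self, neg_zero]
      · intro v
        rw [abs_neg]
        exact habsgm v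
      · intro v a
        rw [hsegneg, abs_neg, hgmPath]
        split_ifs
        · exact abs_segSum_down_le g' v a
        · exact abs_segSum_up_le g' v a
      · intro v a hP
        constructor
        · intro hd
          rw [hsegneg, hgmPath, if_pos hd]
          have := hdownSign v a hP
          linarith
        · intro hd
          rw [hsegneg, hgmPath, if_neg hd]
          have := hupSign v a hP
          linarith

end Vale.Agent.P069
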