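import Mathlib

/-!
# The forest behind the reflexive AMUC, non-AUC renormable space

Nodes of the tree `T_n` are lists of naturals of length at most `n`.  A functional is *in the
ball of size `c`* when its squares sum to at most `c` along antichains, and when its sums along
segments of chains have squares at most `c`.
-/

open scoped BigOperators

namespace Vale.Agent.P069

/-- A node of the tree of height `n`: a list of naturals of length at most `n`. -/
@[ext] structure TNode (n : ℕ) where
  path : List ℕ
  len_le : path.length ≤ n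

variable {n : ℕ}

/-- The depth of a node. -/
def depth (v : TNode n) : ℕ := v.path.length

/-- The ancestor of `v` at depth `i` (or `v` itself if `i` is larger than the depth of `v`). -/
def anc (v : TNode n) (i : ℕ) : TNode n :=
  ⟨v.path.take i, le_trans (List.length_take_le' _ _) v.len_le⟩

lemma depth_le (v : TNode n) : depth v ≤ n := v.len_le

lemma depth_anc (v : TNode n) (i : ℕ) : depth (anc v i) = min i (depth v) := by
  simp [depth, anc, List.length_take]

lemma anc_anc (v : TNode n) (i j : ℕ) : anc (anc v i) j = anc v (min j i) := by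
  ext1
  simp [anc, List.take_take]

lemma anc_of_le (v : TNode n) {i : ℕ} (h : depth v ≤ i) : anc v i = v := by
  ext1
  exact List.take_of_length_le h

lemma anc_depth (v : TNode n) : anc v (depth v) = v := anc_of_le v le_rfl

/-- A finite antichain: no element of `A` is a proper ancestor of another element of `A`. -/
def IsAnti (A : Finset (TNode n)) : Prop := ∀ v ∈ A, ∀ w ∈ A, ∀ i, anc w i = v → w = v

/-- The sum of `f` along the segment of the chain of `v` made of depths `a ≤ i ≤ depth v`. -/
def segSum (f : TNode n → ℝ) (v : TNode n) (a : ℕ) : ℝ :=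
  ∑ i ∈ Finset.Ico a (depth v + 1), f (anc v i)

/-- `f` is in the ball of size `c`. -/
structure InBall (c : ℝ) (f : TNode n → ℝ) : Prop where
  anti : ∀ A : Finset (TNode n), IsAnti A → ∑ v ∈ A, (f v) ^ 2 ≤ c
  seg : ∀ v a, (segSum f v a) ^ 2 ≤ c

lemma InBall.nonneg {c : ℝ} {f : TNode n → ℝ} (h : InBall c f) : 0 ≤ c :=
  le_trans (sq_nonneg _) (h.seg ⟨[], by simp⟩ 0)

lemma isAnti_singleton (v : TNode n) : IsAnti ({v} : Finset (TNode n)) := by
  intro a ha b hb _ _
  simp only [Finset.mem_singleton] at ha hb
  rw [ha, hb]

lemma InBall.sq_le {c : ℝ} {f : TNode n → ℝ} (h : InBall c f) (v : TNode n) : (f v) ^ 2 ≤ c := by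
  simpa using h.anti {v} (isAnti_singleton v)

/-- Nodes of a fixed depth form an antichain. -/
lemma isAnti_level (S : Finset (TNode n)) (d : ℕ) : IsAnti (S.filter fun v => depth v = d) := by
  intro v hv w hw i hi
  simp only [Finset.mem_filter] at hv hw
  have h1 : depth (anc w i) = min i (depth w) := depth_anc w i
  rw [hi, hv.2, hw.2] at h1
  have h2 : d ≤ i := by
    have : min i d ≤ i := min_le_left _ _
    omega
  have h3 : anc w i = w := anc_of_le w (by rw [hw.2]; exact h2)
  rw [← hi, h3]

lemma subset_isAnti {A B : Finset (TNode n)} (h : A ⊆ B) (hB : IsAnti B) : IsAnti A :=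
  fun v hv w hw i hi => hB v (h hv) w (h hw) i hi

/-- Total square mass of a functional in the ball of size `c`. -/
lemma InBall.sum_sq_le {c : ℝ} {f : TNode n → ℝ} (h : InBall c f) (S : Finset (TNode n)) :
    ∑ v ∈ S, (f v) ^ 2 ≤ (n + 1) * c := by
  have hmaps : ∀ v ∈ S, depth v ∈ Finset.range (n + 1) := fun v _ =>
    Finset.mem_range.mpr (Nat.lt_succ_of_le (depth_le v))
  rw [← Finset.sum_fiberwise_of_maps_to hmaps]
  calc ∑ d ∈ Finset.range (n + 1), ∑ v ∈ S with depth v = d, (f v) ^ 2
      ≤ ∑ _d ∈ Finset.range (n + 1), c :=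
        Finset.sum_le_sum fun d _ => h.anti _ (isAnti_level S d)
    _ = (n + 1) * c := by simp

/-- Difference of two suffix sums is (up to sign) a segment sum. -/
lemma InBall.diff_aux {c : ℝ} {f : TNode n → ℝ} (h : InBall c f) (v : TNode n) {a b : ℕ}
    (hab : a ≤ b) : (segSum f v a - segSum f v b) ^ 2 ≤ c := by
  have hc : 0 ≤ c := h.nonneg
  by_cases ha : depth v + 1 ≤ a
  · have h1 : segSum f v a = 0 := by
      unfold segSum; rw [Finset.Ico_eq_empty_of_le ha]; simp
    have h2 : segSum f v b = 0 := by
      unfold segSum; rw [Finset.Ico_eq_empty_of_le (le_trans ha hab)]; simp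
    rw [h1, h2]; simpa using hc
  · push Not at ha
    set e := min b (depth v + 1) with he
    have hae : a ≤ e := le_min hab ha.le
    have hed : e ≤ depth v + 1 := min_le_right _ _
    have h1 : segSum f v a =
        ∑ i ∈ Finset.Ico a e, f (anc v i) + ∑ i ∈ Finset.Ico e (depth v + 1), f (anc v i) := by
      unfold segSum; rw [Finset.sum_Ico_consecutive _ hae hed]
    have h2 : segSum f v b = ∑ i ∈ Finset.Ico e (depth v + 1), f (anc v i) := by
      unfold segSum
      rcases le_total b (depth v + 1) with hb | hb
      · rw [he, min_eq_left hb]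
      · rw [he, min_eq_right hb, Finset.Ico_eq_empty_of_le hb]; simp
    have h3 : segSum f v a - segSum f v b = ∑ i ∈ Finset.Ico a e, f (anc v i) := by
      rw [h1, h2]; ring
    rw [h3]
    rcases Nat.eq_zero_or_pos e with he0 | he0
    · have : a = 0 := by omega
      rw [he0, this]; simpa using hc
    · have hw := h.seg (anc v (e - 1)) a
      have hdw : depth (anc v (e - 1)) + 1 = e := by
        rw [depth_anc]; omega
      have : segSum f (anc v (e - 1)) a = ∑ i ∈ Finset.Ico a e, f (anc v i) := by
        unfold segSum
        rw [hdw]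
        refine Finset.sum_congr rfl fun i hi => ?_
        rw [anc_anc]
        have : i ≤ e - 1 := by
          have := (Finset.mem_Ico.mp hi).2
          omega
        rw [min_eq_left this]
      rwa [this] at hw

lemma InBall.diff {c : ℝ} {f : TNode n → ℝ} (h : InBall c f) (v : TNode n) (a b : ℕ) :
    (segSum f v a - segSum f v b) ^ 2 ≤ c := by
  rcases le_total a b with hab | hab
  · exact h.diff_aux v hab
  · have := h.diff_aux v hab
    rwa [← neg_sub, neg_sq]

end Vale.Agent.P069
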